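import Vale.Agent.P200G.GDef

namespace Vale.Agent.P200G

open Module P200 P200L P200D

variable {n : ℕ} {k : Type*} [DivisionRing k]

lemma b2a_k0 (u : Finset (Fin 2) → VV k 2) :
    kos (sh k 2) u ∅ = sh k 2 0 (u {0}) + sh k 2 1 (u {1}) := by
  rw [kos_apply, Finset.compl_empty, Fin.sum_univ_two]
  simp [sg]

lemma b2a_k1 (u : Finset (Fin 2) → VV k 2) :
    kos (sh k 2) u {1} = sh k 2 0 (u Finset.univ) := by
  have e1 : ({1} : Finset (Fin 2))ᶜ = {0} := by decide
  have e2 : insert 0 ({1} : Finset (Fin 2)) = Finset.univ := by decide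
  have e3 : sg ({1} : Finset (Fin 2)) 0 = 1 := by decide
  rw [kos_apply, e1, Finset.sum_singleton, e2, e3, one_smul]

lemma b2a_k2 (u : Finset (Fin 2) → VV k 2) :
    kos (sh k 2) u {0} = -sh k 2 1 (u Finset.univ) := by
  have e1 : ({0} : Finset (Fin 2))ᶜ = {1} := by decide
  have e2 : insert 1 ({0} : Finset (Fin 2)) = Finset.univ := by decide
  have e3 : sg ({0} : Finset (Fin 2)) 1 = -1 := by decide
  rw [kos_apply, e1, Finset.sum_singleton, e2, e3, neg_one_smul]

lemma b2a_one (F : Finset (Fin 2)) : F.card = 1 ↔ F = {0} ∨ F = {1} := by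
  revert F
  decide

lemma b2a_two (F : Finset (Fin 2)) : F.card = 1 + 1 ↔ F = Finset.univ := by
  revert F
  decide

/-- a chain of homological degree one -/
lemma b2a_pair {G : ℕ → Submodule k (VV k 2)} {e : ℕ} {x y : VV k 2} (hx : x ∈ G e)
    (hy : y ∈ G e) : ∃ u ∈ ch 2 G 1 (e + 1), kos (sh k 2) u ∅ = sh k 2 0 x + sh k 2 1 y := by
  refine ⟨fun F => if F = {0} then x else if F = {1} then y else 0,
    mem_ch'.2 ⟨fun F hF _ => ?_, fun F hF => ?_⟩, ?_⟩
  · rw [Nat.add_sub_cancel]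
    split_ifs
    exacts [hx, hy, zero_mem _]
  · have h1 : ¬ (F = {0} ∨ F = {1}) := fun h => hF ⟨(b2a_one F).2 h, by omega⟩
    rw [not_or] at h1
    simp only [h1.1, h1.2, if_false]
  · have : ({1} : Finset (Fin 2)) ≠ {0} := by decide
    rw [b2a_k0, if_pos rfl, if_neg this, if_pos rfl]

lemma b2a_Pd (e : ℕ) :
    Pd k 2 (e + 1) ≤ (Pd k 2 e).map (sh k 2 0) ⊔ (Pd k 2 e).map (sh k 2 1) := by
  rw [Pd, Finsupp.supported_eq_span_single, Submodule.span_le]
  rintro _ ⟨β, hβ, rfl⟩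
  have hd := mem_expo.1 hβ
  have key : ∀ i : Fin 2, β i ≠ 0 → Finsupp.single β (1 : k) ∈ (Pd k 2 e).map (sh k 2 i) := by
    intro i hi
    have e1 : β - Finsupp.single i 1 + Finsupp.single i 1 = β :=
      tsub_add_cancel_of_le (Finsupp.single_le_iff.2 (Nat.one_le_iff_ne_zero.2 hi))
    refine ⟨Finsupp.single (β - Finsupp.single i 1) 1, Finsupp.single_mem_supported _ _ ?_, ?_⟩
    · rw [Finset.mem_coe, mem_expo]
      rw [← e1, map_add, Finsupp.degree_single] at hd
      omega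
    · rw [Finsupp.lmapDomain_apply, Finsupp.mapDomain_single, e1]
  rw [Finsupp.degree_eq_sum, Fin.sum_univ_two] at hd
  by_cases h0 : β 0 = 0
  · exact Submodule.mem_sup_right (key 1 (by omega))
  · exact Submodule.mem_sup_left (key 0 h0)

lemma b2a_WE {E E' : Set (Fin 2 →₀ ℕ)} {i : Fin 2} (h : ∀ β ∈ E, β + Finsupp.single i 1 ∈ E')
    {d : ℕ} {v : VV k 2} (hv : v ∈ WE k E d) : sh k 2 i v ∈ WE k E' (d + 1) := by
  classical
  intro γ hγ
  obtain ⟨δ, hδ, rfl⟩ := Finset.mem_image.mp (Finsupp.mapDomain_support hγ)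
  have h1 := hv hδ
  refine ⟨h δ h1.1, ?_⟩
  have := mem_expo.mp h1.2
  rw [Finset.mem_coe, mem_expo, map_add, this, Finsupp.degree_single]

lemma b2a_inj (L : Set (Fin 2 →₀ ℕ)) (d : ℕ) :
    cnt {g | g + Finsupp.single 0 1 ∈ L ∧ g + Finsupp.single 1 1 ∈ L} d ≤
      tE k L 1 (d + 1 + 1) := by
  haveI := ch_fin (n := 2) (WE k L) 1 (d + 1 + 1)
  rw [← finrank_WE (k := k), ← finrank_map_inj (kos (sh k 2) ∘ₗ
    LinearMap.single k (fun _ : Finset (Fin 2) => VV k 2) Finset.univ)]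
  · refine Submodule.finrank_mono ?_
    rintro _ ⟨g, hg, rfl⟩
    have hB : Pi.single (M := fun _ : Finset (Fin 2) => VV k 2) Finset.univ g ∈
        ch 2 (Pd k 2) (1 + 1) (d + 1 + 1) := by
      refine mem_ch'.2 ⟨fun F hF _ => ?_, fun F hF => ?_⟩
      · rw [(b2a_two F).1 hF, Pi.single_eq_same]
        exact Yy_le _ _ hg
      · exact Pi.single_eq_of_ne (fun h => hF ⟨(b2a_two F).2 h, by omega⟩) _
    refine ⟨⟨_, hB, rfl⟩, mem_ch'.2 ⟨fun F hF _ => ?_,
      (mem_ch'.1 (kos_ch _ _ sh_Pd 1 _ ⟨_, hB, rfl⟩)).2⟩⟩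
    change kos (sh k 2) (Pi.single Finset.univ g) F ∈ WE k L (d + 1)
    rcases (b2a_one F).1 hF with rfl | rfl
    · rw [b2a_k2, Pi.single_eq_same]
      exact neg_mem (b2a_WE (fun β hβ => hβ.2) hg)
    · rw [b2a_k1, Pi.single_eq_same]
      exact b2a_WE (fun β hβ => hβ.1) hg
  · intro g _ h0
    have h1 : kos (sh k 2) (Pi.single Finset.univ g) {1} = 0 := congrFun h0 {1}
    rw [b2a_k1, Pi.single_eq_same] at h1
    exact Finsupp.mapDomain_injective (add_left_injective _)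
      (h1.trans Finsupp.mapDomain_zero.symm)

lemma b2a_fib (e m : ℕ) :
    ((expo 2 e).filter fun β => β 1 = m).card ≤ if e < m then 0 else 1 := by
  have hd : ∀ β ∈ (expo 2 e).filter fun β => β 1 = m, β 0 + m = e ∧ β 1 = m := fun β hβ => by
    obtain ⟨h1, h2⟩ := Finset.mem_filter.1 hβ
    have := mem_expo.1 h1
    rw [Finsupp.degree_eq_sum, Fin.sum_univ_two] at this
    omega
  split_ifs with h
  · rw [Nat.le_zero, Finset.card_eq_zero, Finset.eq_empty_iff_forall_notMem]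
    intro β hβ
    have := hd β hβ
    omega
  · refine Finset.card_le_one.2 fun β hβ γ hγ => ?_
    have h1 := hd β hβ
    have h2 := hd γ hγ
    ext i
    fin_cases i
    · change β 0 = γ 0
      omega
    · change β 1 = γ 1
      omega

theorem tW_zero2 {W : ℕ → Submodule k (VV k 2)} (h : HW W) (j : ℕ) :
    tW W 0 j = if j = 0 then 0 else finrank k (W j) := by
  haveI := h.fin
  unfold tW tt
  cases j with
  | zero =>
    have : ch 2 (Pd k 2) (0 + 1) 0 = ⊥ := by
      rw [eq_bot_iff]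
      intro u hu
      exact funext fun F => (mem_ch'.1 hu).2 F (by omega)
    rw [this, Submodule.map_bot, bot_inf_eq, finrank_bot, if_pos rfl]
  | succ e =>
    have hle : ch 2 W 0 (e + 1) ≤ (ch 2 (Pd k 2) (0 + 1) (e + 1)).map (kos (sh k 2)) := by
      intro u hu
      have h1 : u ∅ ∈ Pd k 2 (e + 1) := h _ ((mem_ch'.1 hu).1 ∅ rfl (Nat.zero_le _))
      obtain ⟨_, ⟨x, hx, rfl⟩, _, ⟨y, hy, rfl⟩, hxy⟩ := Submodule.mem_sup.1 (b2a_Pd e h1)
      obtain ⟨v, hv, e1⟩ := b2a_pair hx hy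
      refine ⟨v, hv, funext fun F => ?_⟩
      by_cases hF : F = ∅
      · rw [hF, e1, hxy]
      · have hF' : ¬ (F.card = 0 ∧ 0 ≤ e + 1) := fun hh => hF (Finset.card_eq_zero.1 hh.1)
        rw [(mem_ch'.1 hu).2 F hF', (mem_ch'.1 (kos_ch _ _ sh_Pd 0 _ ⟨v, hv, rfl⟩)).2 F hF']
    rw [inf_eq_right.2 hle, finrank_ch]
    simp

theorem tW_big2 (W : ℕ → Submodule k (VV k 2)) {p : ℕ} (hp : 2 ≤ p) (j : ℕ) : tW W p j = 0 := by
  unfold tW tt
  have : ch 2 (Pd k 2) (p + 1) j = ⊥ := by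
    rw [eq_bot_iff]
    intro u hu
    refine funext fun F => (mem_ch'.1 hu).2 F fun hF => ?_
    have := Finset.card_le_univ F
    rw [Fintype.card_fin] at this
    omega
  rw [this, Submodule.map_bot, bot_inf_eq, finrank_bot]

theorem tW_one2 {W : ℕ → Submodule k (VV k 2)} (h : HW W) (e : ℕ) :
    tW W 1 (e + 1) + finrank k ((W e).map (sh k 2 0) ⊔ (W e).map (sh k 2 1) : Submodule k _) ≤
      2 * finrank k (W e) := by
  haveI := h.fin
  haveI := ch_fin (n := 2) W 1 (e + 1)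
  have h1 := rank_null (LinearMap.proj (R := k) (φ := fun _ : Finset (Fin 2) => VV k 2) ∅ ∘ₗ
    kos (sh k 2)) (ch 2 W 1 (e + 1))
  have h2 : finrank k (ch 2 W 1 (e + 1)) = 2 * finrank k (W e) := by
    have : (Finset.univ.filter fun F : Finset (Fin 2) => F.card = 1).card = 2 := by decide
    rw [finrank_ch]
    simp only [Nat.le_add_left, and_true, Nat.add_sub_cancel]
    rw [← Finset.sum_filter, Finset.sum_const, this, smul_eq_mul]
    rfl
  rw [← h2, ← h1]
  refine Nat.add_le_add (Submodule.finrank_mono ?_) (Submodule.finrank_mono (sup_le ?_ ?_))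
  · rintro _ ⟨⟨v, -, rfl⟩, hv⟩
    exact ⟨hv, congrFun (lay_sh 2 v) ∅⟩
  · rintro _ ⟨x, hx, rfl⟩
    obtain ⟨v, hv, e1⟩ := b2a_pair hx (zero_mem _)
    exact ⟨v, hv, e1.trans (by rw [map_zero, add_zero])⟩
  · rintro _ ⟨x, hx, rfl⟩
    obtain ⟨v, hv, e1⟩ := b2a_pair (zero_mem _) hx
    exact ⟨v, hv, e1.trans (by rw [map_zero, zero_add])⟩

theorem tE_one2 {a : Fin 2 → ℕ} {L : Set (Fin 2 →₀ ℕ)} (h : IsLex a L) (e : ℕ) :
    cnt L e ≤ tE k L 1 (e + 1) + if e < a 1 then 1 else 2 := by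
  classical
  have f0 := b2a_fib e 0
  have f1 := b2a_fib e (a 1)
  have key : ((expo 2 e).filter fun β => β ∈ L ∧ β 1 ≠ 0 ∧ β 1 ≠ a 1).card ≤
      tE k L 1 (e + 1) := by
    have hd : ∀ β ∈ expo 2 e, β 0 + β 1 = e := fun β hβ => by
      have := mem_expo.1 hβ
      rwa [Finsupp.degree_eq_sum, Fin.sum_univ_two] at this
    cases e with
    | zero =>
      rw [Finset.filter_eq_empty_iff.2, Finset.card_empty]
      · exact Nat.zero_le _
      · intro β hβ hh
        have := hd β hβ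
        omega
    | succ d =>
      refine le_trans ?_ (b2a_inj (k := k) L d)
      unfold cnt
      refine le_trans (Finset.card_le_card fun β hβ => ?_)
        (Finset.card_image_le (f := (· + Finsupp.single 1 1)))
      obtain ⟨h1, h2, h3, h4⟩ := Finset.mem_filter.1 hβ
      obtain ⟨g, rfl⟩ : ∃ g, β = g + Finsupp.single 1 1 := ⟨β - Finsupp.single 1 1,
        (tsub_add_cancel_of_le (Finsupp.single_le_iff.2 (Nat.one_le_iff_ne_zero.2 h3))).symm⟩
      have h5 := mem_expo.1 h1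
      rw [map_add, Finsupp.degree_single] at h5
      refine Finset.mem_image.2 ⟨g, ?_, rfl⟩
      refine (@Finset.mem_filter _ _ (fun _ => Classical.propDecidable _) _ _).2
        ⟨mem_expo.2 (by omega), ?_, h2⟩
      by_cases hO : Out a (g + Finsupp.single 1 1)
      · obtain ⟨i, hi⟩ := hO
        refine h.1 _ ⟨i, ?_⟩
        fin_cases i
        · simp at hi ⊢
          omega
        · simp at hi h4 ⊢
          omega
      · refine h.2 _ h2 hO _ (by simp) (Shad_lt 0 (fun j hj => absurd hj (Fin.not_lt_zero j)) ?_)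
        simp
  have hs : (expo 2 e).filter (· ∈ L) ⊆
      ((expo 2 e).filter fun β => β ∈ L ∧ β 1 ≠ 0 ∧ β 1 ≠ a 1) ∪
        (((expo 2 e).filter fun β => β 1 = 0) ∪ (expo 2 e).filter fun β => β 1 = a 1) := by
    intro β hβ
    simp only [Finset.mem_union, Finset.mem_filter] at hβ ⊢
    tauto
  have h3 := (Finset.card_le_card hs).trans ((Finset.card_union_le _ _).trans
    (Nat.add_le_add key (Finset.card_union_le _ _)))
  unfold cnt
  refine le_trans (le_of_eq (by congr)) (h3.trans ?_)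
  split_ifs at f0 f1 ⊢ <;> omega

end Vale.Agent.P200G
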