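import Vale.Agent.P200G.GDef

namespace Vale.Agent.P200G

open Module P200 P200L P200D Polynomial

variable {n : ℕ} {k : Type*} [DivisionRing k]

theorem B2b_deg {e : ℕ} {w : VV k 2} (hw : w ∈ Pd k 2 e) :
    ∀ β ∈ w.support, β.degree = e + (0 : Fin (0 + 2) →₀ ℕ).degree := fun β hβ => by
  simpa using mem_expo.mp (hw hβ)

theorem B2b_inj {e : ℕ} {w : VV k 2} (hw : w ∈ Pd k 2 e) (h : P200M.prg (m := 0) k 0 w = 0) :
    w = 0 := by
  by_contra hne
  obtain ⟨β, hβ⟩ := Finsupp.support_nonempty_iff.2 hne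
  have h1 : P200M.tl (m := 0) β = 0 := by
    ext i
    rw [P200M.tl_apply]
    fin_cases i <;> simp
  have h2 := P200M.mk2_tl (m := 0) β
  rw [h1] at h2
  have h3 := P200M.degree_mk2 (m := 0) 0 (β 0) (β 1)
  rw [h2, B2b_deg hw β hβ, map_zero] at h3
  have h4 := P200M.prg_coeff (m := 0) P200M.tl_zero (B2b_deg hw) (β 1)
  rw [h, coeff_zero, if_pos (by omega), show e - β 1 = β 0 by omega, h2] at h4
  exact Finsupp.mem_support_iff.1 hβ h4.symm

theorem B2b_shift (i j : ℕ) (w : VV k 2) :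
    P200M.prg (m := 0) k 0 (w.mapDomain (· + P200M.mk2 (m := 0) 0 i j)) =
      X ^ j * P200M.prg (m := 0) k 0 w := by
  have := P200M.prg_shift (D := k) (m := 0) P200M.tl_zero 0 i j w
  rwa [add_zero] at this

theorem B2b_sh0 (w : VV k 2) :
    P200M.prg (m := 0) k 0 (sh k 2 0 w) = P200M.prg (m := 0) k 0 w := by
  have := B2b_shift 1 0 w
  rw [pow_zero, one_mul] at this
  rw [← this]
  simp [P200M.mk2]

theorem B2b_sh1 (w : VV k 2) :
    P200M.prg (m := 0) k 0 (sh k 2 1 w) = X * P200M.prg (m := 0) k 0 w := by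
  have := B2b_shift 0 1 w
  rw [pow_one] at this
  rw [← this]
  simp [P200M.mk2]

theorem B2b_le {U : Submodule k (VV k 2)} {e : ℕ} (h : U ≤ Pd k 2 e) :
    U.map (sh k 2 0) ⊔ U.map (sh k 2 1) ≤ Pd k 2 (e + 1) := by
  refine sup_le ?_ ?_ <;> rintro _ ⟨w, hw, rfl⟩ <;> exact sh_Pd _ _ _ (h hw)

theorem grow1 {U : Submodule k (VV k 2)} {e : ℕ} (h : U ≤ Pd k 2 e) (h0 : U ≠ ⊥) :
    finrank k U + 1 ≤ finrank k (U.map (sh k 2 0) ⊔ U.map (sh k 2 1) : Submodule k _) := by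
  have := Submodule.finiteDimensional_of_le h
  have hf := Submodule.finiteDimensional_of_le (B2b_le h)
  have h1 : finrank k (U.map (sh k 2 0)) = finrank k U :=
    finrank_map_inj _ _ fun w hw h' => B2b_inj (h hw) (by rw [← B2b_sh0, h', map_zero])
  rw [← h1]
  refine Submodule.finrank_lt_finrank_of_lt (lt_of_le_of_ne le_sup_left fun heq => ?_)
  obtain ⟨v, hv, hv0⟩ := (Submodule.ne_bot_iff U).1 h0
  have hX : ∀ i : ℕ, X ^ i * P200M.prg (m := 0) k 0 v ∈ U.map (P200M.prg (m := 0) k 0) := by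
    intro i
    induction i with
    | zero => exact ⟨v, hv, by simp⟩
    | succ i ih =>
      obtain ⟨u, hu, hu'⟩ := ih
      have h2 : sh k 2 1 u ∈ U.map (sh k 2 0) := by
        rw [heq]
        exact Submodule.mem_sup_right ⟨u, hu, rfl⟩
      obtain ⟨u', hu1, hu2⟩ := h2
      refine ⟨u', hu1, ?_⟩
      rw [← B2b_sh0, hu2, B2b_sh1, hu', pow_succ', mul_assoc]
  have h3 := P200M.count_Gotz (U.map (P200M.prg (m := 0) k 0))
    (fun h' => hv0 (B2b_inj (h hv) h'))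
    (N := finrank k (U.map (P200M.prg (m := 0) k 0)) + 1) fun i _ => hX i
  omega

theorem grow2 {W : ℕ → Submodule k (VV k 2)} (h : HW W) (hu : UpW W) {a0 a1 : ℕ} (h01 : a0 ≤ a1)
    (h2 : Two (m := 0) a0 a1 W) {e : ℕ} (he : a1 ≤ e) (hlt : finrank k (W e) < e + 1) :
    finrank k (W e) + 2 ≤
      finrank k ((W e).map (sh k 2 0) ⊔ (W e).map (sh k 2 1) : Submodule k _) := by
  obtain ⟨F0, hF0, F1, hF1, H1, H2⟩ := h2
  have := h.fin e
  have hf := Submodule.finiteDimensional_of_le (B2b_le (h e))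
  have e1 : finrank k ((W e).map (P200M.prg (m := 0) k 0)) = finrank k (W e) :=
    finrank_map_inj _ _ fun w hw h' => B2b_inj (h e hw) h'
  have e2 := finrank_map_inj (P200M.prg (m := 0) k 0)
    ((W e).map (sh k 2 0) ⊔ (W e).map (sh k 2 1)) fun w hw h' => B2b_inj (B2b_le (h e) hw) h'
  have i1 : (W e).map (P200M.prg (m := 0) k 0) ≤
      ((W e).map (sh k 2 0) ⊔ (W e).map (sh k 2 1)).map (P200M.prg (m := 0) k 0) := by
    rintro _ ⟨w, hw, rfl⟩
    exact ⟨_, Submodule.mem_sup_left ⟨w, hw, rfl⟩, B2b_sh0 w⟩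
  have i2 : ∀ v ∈ (W e).map (P200M.prg (m := 0) k 0), X * v ∈
      ((W e).map (sh k 2 0) ⊔ (W e).map (sh k 2 1)).map (P200M.prg (m := 0) k 0) := by
    rintro _ ⟨w, hw, rfl⟩
    exact ⟨_, Submodule.mem_sup_right ⟨w, hw, rfl⟩, B2b_sh1 w⟩
  have i3 : ∀ a ≤ e, ∀ F ∈ W a, ∀ j ≤ e - a,
      X ^ j * P200M.prg (m := 0) k 0 F ∈ (W e).map (P200M.prg (m := 0) k 0) := by
    intro a ha F hF j hj
    refine ⟨_, ?_, B2b_shift (e - a - j) j F⟩
    have := P200M.shift_mem W hu (P200M.mk2 (m := 0) 0 (e - a - j) j) _ _ hF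
    rwa [P200M.degree_mk2, map_zero, show a + (0 + (e - a - j) + j) = e by omega] at this
  have i4 : ∀ a ≤ e, ∀ F ∈ W a, ∀ j ≤ e + 1 - a, X ^ j * P200M.prg (m := 0) k 0 F ∈
      ((W e).map (sh k 2 0) ⊔ (W e).map (sh k 2 1)).map (P200M.prg (m := 0) k 0) := by
    intro a ha F hF j hj
    cases j with
    | zero => exact i1 (i3 a ha F hF 0 (Nat.zero_le _))
    | succ j =>
      rw [pow_succ', mul_assoc]
      exact i2 _ (i3 a ha F hF j (by omega))
  have H2' : (P200M.prg (m := 0) k 0 F0).coeff a0 ≠ 0 ∨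
      (P200M.prg (m := 0) k 0 F1).coeff a1 ≠ 0 := by
    rw [P200M.prg_coeff P200M.tl_zero (B2b_deg (h _ hF0)),
      P200M.prg_coeff P200M.tl_zero (B2b_deg (h _ hF1))]
    simpa [P200M.mk2] using H2
  rw [← e1, ← e2]
  exact P200M.drop _ _ i1 i2 (E := e + 1) _ _ (by omega) (by omega)
    (i4 a0 (h01.trans he) F0 hF0) (i4 a1 he F1 hF1) H1 H2' (by rwa [e1])

end Vale.Agent.P200G
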