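import Vale.Agent.P200G.GDef

namespace Vale.Agent.P200G

open Module P200 P200L P200D

variable {n : ℕ} {k : Type*} [DivisionRing k]

theorem layW_hw {W : ℕ → Submodule k (VV k (n + 1))} (h : HW W) (i : ℕ) : HW (layW W i) := by
  rintro d _ ⟨w, hw, rfl⟩ β hβ
  have h0 : layCo k n i w β ≠ 0 := Finsupp.mem_support_iff.1 (Finset.mem_coe.1 hβ)
  have h1 : snc β i ∈ w.support := Finsupp.mem_support_iff.2 h0
  have h2 := mem_expo.mp (h _ hw h1)
  rw [degree_snc] at h2
  exact mem_expo.mpr (by omega)

theorem layW_up {W : ℕ → Submodule k (VV k (n + 1))} (h : UpW W) (i : ℕ) : UpW (layW W i) := by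
  rintro d l _ ⟨w, hw, rfl⟩
  refine ⟨sh k (n + 1) l.castSucc w, ?_, layCo_cast i l w⟩
  have := h _ l.castSucc w hw
  rwa [show d + i + 1 = d + 1 + i by omega] at this

theorem layW_le {W : ℕ → Submodule k (VV k (n + 1))} (h : UpW W) (i d : ℕ) :
    layW W i d ≤ layW W (i + 1) d := by
  rintro _ ⟨w, hw, rfl⟩
  exact ⟨sh k (n + 1) (Fin.last n) w, h _ _ w hw, layCo_last i w⟩

theorem layW_top {a : Fin (n + 1) → ℕ} {W : ℕ → Submodule k (VV k (n + 1))} (h : HW W)
    (ho : OutW a W) {i : ℕ} (hi : a (Fin.last n) ≤ i) : layW W i = Pd k n := by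
  funext d
  refine le_antisymm (layW_hw h i d) ?_
  change Finsupp.supported k k _ ≤ _
  rw [Finsupp.supported_eq_span_single, Submodule.span_le]
  rintro _ ⟨β, hβ, rfl⟩
  have h1 := ho (snc β i) ⟨Fin.last n, by simpa using hi⟩
  rw [degree_snc, mem_expo.mp hβ] at h1
  exact ⟨_, h1, by rw [layCo_single, if_pos rfl]⟩

theorem finrank_layW {W : ℕ → Submodule k (VV k (n + 1))} (h : HW W) (hz : ZG W) (d : ℕ) :
    finrank k (W d) = ∑ i ∈ Finset.range (d + 1), finrank k (layW W i (d - i)) := by
  have := h.fin d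
  have key : ∀ m, finrank k (W d) = finrank k (W d ⊓ Vge k n m : Submodule k _) +
      ∑ i ∈ Finset.range m, finrank k ((W d).map (layCo k n i)) := by
    intro m
    induction m with
    | zero =>
      have e : W d ⊓ Vge k n 0 = W d := inf_eq_left.mpr fun w _ β _ => Nat.zero_le _
      rw [e, Finset.sum_range_zero, add_zero]
    | succ m ih =>
      have : FiniteDimensional k (W d ⊓ Vge k n m : Submodule k _) :=
        Submodule.finiteDimensional_of_le inf_le_left
      have e1 : (W d ⊓ Vge k n m : Submodule k _) ⊓ LinearMap.ker (layCo k n m) =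
          (W d ⊓ Vge k n (m + 1) : Submodule k _) := by
        symm
        refine le_antisymm (fun w hw => ?_) (fun w hw => ?_)
        swap
        · rw [Submodule.mem_inf, Submodule.mem_inf] at hw
          refine Submodule.mem_inf.2 ⟨hw.1.1, fun β hβ => ?_⟩
          refine Nat.succ_le_of_lt (lt_of_le_of_ne (hw.1.2 hβ) fun e => ?_)
          have h0 : layCo k n m w (ini β) = 0 := by
            rw [LinearMap.mem_ker.mp hw.2]
            rfl
          rw [layCo_apply, e, snc_ini] at h0
          exact Finsupp.mem_support_iff.1 hβ h0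
        · rw [Submodule.mem_inf] at hw
          refine Submodule.mem_inf.2 ⟨Submodule.mem_inf.2
            ⟨hw.1, fun β hβ => Nat.le_of_succ_le (hw.2 hβ)⟩, LinearMap.mem_ker.mpr ?_⟩
          ext β
          rw [layCo_apply]
          by_contra h0
          have h1 : m + 1 ≤ snc β m (Fin.last n) := hw.2 (Finsupp.mem_support_iff.2 h0)
          rw [snc_last] at h1
          omega
      have e2 : (W d ⊓ Vge k n m).map (layCo k n m) = (W d).map (layCo k n m) := by
        refine le_antisymm (Submodule.map_mono inf_le_left) ?_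
        rintro _ ⟨w, hw, rfl⟩
        refine ⟨zf k n m w, ⟨hz d m w hw, fun β hβ => ?_⟩, ?_⟩
        · have h1 := Finsupp.mem_support_iff.1 hβ
          rw [zf_apply] at h1
          by_cases e : β (Fin.last n) = m
          · exact e.ge
          · exact absurd (if_neg e) h1
        · ext β
          rw [layCo_apply, layCo_apply, zf_apply, if_pos (snc_last β m)]
      have e3 := rank_null (layCo k n m) (W d ⊓ Vge k n m)
      rw [e1, e2] at e3
      rw [Finset.sum_range_succ, ih, ← e3]
      ring
  have e : W d ⊓ Vge k n (d + 1) = ⊥ := by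
    rw [eq_bot_iff]
    intro w hw
    rw [Submodule.mem_bot]
    ext β
    by_contra h0
    have h1 : β ∈ w.support := Finsupp.mem_support_iff.2 h0
    have h2 : d + 1 ≤ β (Fin.last n) := hw.2 h1
    have h3 := mem_expo.mp (h d hw.1 h1)
    have h5 := degree_snc (ini β) (β (Fin.last n))
    rw [snc_ini] at h5
    omega
  rw [key (d + 1), e, finrank_bot, zero_add]
  refine Finset.sum_congr rfl fun i hi => ?_
  rw [layW, Nat.sub_add_cancel (Nat.lt_succ_iff.mp (Finset.mem_range.mp hi))]

theorem yyg_univ : WE k (Set.univ : Set (Fin n →₀ ℕ)) = Pd k n := by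
  funext d
  rw [WE, Set.univ_inter]

theorem finrank_Pd (d : ℕ) : finrank k (Pd k n d) = cnt (n := n) Set.univ d := by
  rw [← yyg_univ, finrank_WE]

theorem finrank_chW {W : ℕ → Submodule k (VV k n)} (h : HW W) {E : Set (Fin n →₀ ℕ)}
    (hc : ∀ d, cnt E d = finrank k (W d)) (p m : ℕ) : finrank k (ch n W p m) = cc k E p m := by
  have := h.fin
  rw [cc, finrank_ch, finrank_ch]
  simp only [finrank_WE, hc]

theorem YG_le {W1 : ℕ → Submodule k (VV k n)} (h : HW W1) (W0 : ℕ → Submodule k (VV k n))
    (p m : ℕ) : finrank k (YG W1 W0 p m) ≤ finrank k (ch n W1 p m) := by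
  have := h.fin
  have := ch_fin (n := n) W1 p m
  exact Submodule.finrank_mono inf_le_left

theorem YG_univ {W0 : ℕ → Submodule k (VV k n)} (h0 : HW W0) (E0 : Set (Fin n →₀ ℕ)) (m : ℕ)
    (h : ∀ p, tW W0 p m ≤ tE k E0 p m) (p : ℕ) :
    finrank k (YG (Pd k n) W0 p m) ≤ finrank k (YY k Set.univ E0 p m) := by
  have := ch_fin (n := n) (Pd k n) p m
  have : FiniteDimensional k (YG (Pd k n) W0 p m) := Submodule.finiteDimensional_of_le inf_le_left
  rw [Yy_dim, ← rank_null (kos (sh k n)) (YG (Pd k n) W0 p m), YG,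
    Submodule.map_inf_eq_map_inf_comap.symm, inf_assoc, inf_eq_right.mpr (LinearMap.ker_le_comap _)]
  refine Nat.add_le_add_left ?_ _
  cases p with
  | zero => rw [kos_zero, bot_inf_eq, bot_inf_eq]
  | succ p =>
    have : FiniteDimensional k ((ch n (Pd k n) (p + 1) m).map (kos (sh k n)) ⊓
        (Submodule.pi Set.univ fun _ => Finsupp.supported k k E0) : Submodule k _) :=
      Submodule.finiteDimensional_of_le inf_le_left
    refine (h p).trans (Submodule.finrank_mono (inf_le_inf_left _ fun u hu F _ => ?_))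
    rw [mem_ch'] at hu
    by_cases hc : F.card = p ∧ p ≤ m
    · exact fun β hβ => (hu.1 F hc.1 hc.2 hβ).1
    · rw [hu.2 F hc]
      exact zero_mem _

theorem tW_mono {W W' : ℕ → Submodule k (VV k n)} {p j : ℕ} (h : W (j - p) ≤ W' (j - p)) :
    tW W p j ≤ tW W' p j := by
  have := ch_fin (n := n) (Pd k n) (p + 1) j
  have : FiniteDimensional k ((ch n (Pd k n) (p + 1) j).map (kos (sh k n)) ⊓
      ch n W' p j : Submodule k _) := Submodule.finiteDimensional_of_le inf_le_left
  refine Submodule.finrank_mono (inf_le_inf_left _ fun u hu => ?_)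
  rw [mem_ch'] at hu ⊢
  exact ⟨fun F a b => h (hu.1 F a b), hu.2⟩

theorem tW_Pd (p j : ℕ) : tW (Pd k n) p j = tE k (Set.univ : Set (Fin n →₀ ℕ)) p j := by
  rw [tE, yyg_univ, tW]

end Vale.Agent.P200G
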