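import Vale.Agent.P200G.GDef
import Vale.Agent.P200G.B2a
import Vale.Agent.P200G.B2b
import Vale.Agent.P200G.YyG

namespace Vale.Agent.P200G

open Module P200 P200L P200D

variable {n : ℕ} {k : Type*} [DivisionRing k]

lemma Base2_up {J : Set (Fin n →₀ ℕ)} (hJ : Up J) {β : Fin n →₀ ℕ} (hβ : β ∈ J)
    (γ : Fin n →₀ ℕ) : β + γ ∈ J := by
  induction γ using Finsupp.induction_linear generalizing β with
  | zero => simpa using hβ
  | add f g hf hg => rw [← add_assoc]; exact hg (hf hβ)
  | single i m =>
    induction m with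
    | zero => simpa using hβ
    | succ m ih => rw [Finsupp.single_add, ← add_assoc]; exact hJ _ ih i

lemma Base2_univ (e : ℕ) : cnt (n := 2) Set.univ e = e + 1 := by
  unfold cnt
  simp [card_expo]

theorem base2 {a : Fin 2 → ℕ} (h0 : 0 < a 0) (h01 : a 0 ≤ a 1) {W : ℕ → Submodule k (VV k 2)}
    (h : HW W) (hu : UpW W) (h2 : Two (m := 0) (a 0) (a 1) W) : Cmp a W := by
  classical
  obtain ⟨F0, hF0, F1, hF1, H1, H2⟩ := id h2
  obtain ⟨J, j1, j2, j3, -, j5⟩ := P200M.layer (m := 0) (c := 2) (a := 0) le_rfl W h.fin h0 h01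
    (fun d w hw β hβ => mem_expo.mp (h d hw hβ)) hu (fun i h1 h2 => by omega) hF0 hF1 H1 H2
  have hO : ∀ β, Out a β → β ∈ J := by
    rintro β ⟨i, hi⟩
    have e : β = Finsupp.single i (a i) + (β - Finsupp.single i (a i)) :=
      (add_tsub_cancel_of_le (Finsupp.single_le_iff.2 hi)).symm
    rw [e]
    refine Base2_up j1 ?_ _
    fin_cases i
    · exact j2
    · exact j3
  have hc : ∀ d, cnt J d = finrank k (W d) := fun d =>
    j5 d _ fun β => by simp [mem_expo, and_comm]
  obtain ⟨L, hL, hLc⟩ := exists_lex a J hO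
  have hc' : ∀ d, cnt L d = finrank k (W d) := fun d => (hLc d).trans (hc d)
  obtain ⟨D, i1, i2, hD⟩ := exists_good ℚ
  have hmono : Monotone a := by
    rw [Fin.monotone_iff_le_succ]
    intro i
    fin_cases i
    exact h01
  have hpos : ∀ i, 0 < a i := by
    intro i
    fin_cases i
    · exact h0
    · exact h0.trans_le h01
  refine ⟨L, hL, hc', (MM D 2 a hmono hpos (fun i => hD _) J L j1 hO hL hLc).1, fun p j => ?_⟩
  have hWE : HW (WE k L) := fun d => Finsupp.supported_mono Set.inter_subset_right
  rcases p with _ | _ | p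
  · change _ ≤ tW (WE k L) 0 j
    rw [tW_zero2 h, tW_zero2 hWE, finrank_WE, hc']
  · rcases j with _ | e
    · refine le_trans (le_of_eq ?_) (Nat.zero_le _)
      have e : ch 2 W 1 0 = ⊥ := by
        rw [eq_bot_iff]
        intro u hu
        rw [Submodule.mem_bot]
        funext F
        exact (mem_ch'.1 hu).2 F (by omega)
      unfold tW tt
      rw [e, inf_bot_eq, finrank_bot]
    · change tW W 1 (e + 1) ≤ tE k L 1 (e + 1)
      have a1 := tW_one2 h e
      have a2 := tE_one2 (k := k) hL e
      rw [hc'] at a2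
      by_cases hb : W e = ⊥
      · rw [hb] at a1
        simp only [finrank_bot] at a1
        omega
      by_cases he : e < a 1
      · have := grow1 (h e) hb
        rw [if_pos he] at a2
        omega
      rw [if_neg he] at a2
      by_cases hlt : finrank k (W e) < e + 1
      · have := grow2 h hu h01 h2 (not_lt.1 he) hlt
        omega
      refine (tW_mono (W' := Pd k 2) (h _)).trans ((tW_Pd 1 (e + 1)).le.trans
        (tE_mono fun β _ hβ => lex_nest (isLex_univ a) hL trivial ?_))
      rw [hβ, Nat.add_sub_cancel, Base2_univ, hc']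
      omega
  · rw [tW_big2 W (by omega)]
    exact Nat.zero_le _

end Vale.Agent.P200G
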