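import Vale.Agent.P200G.GDef

namespace Vale.Agent.P200G

open Module P200 P200L P200D

variable {n : ℕ} {k : Type*} [DivisionRing k]

section gauss
variable {F : Type*} [Field F]

/-- Gauss binomial coefficients -/
def GcQ (ζ : F) : ℕ → ℕ → F
  | 0 => fun _ => 1
  | s + 1 => fun r => Nat.rec 1 (fun r x => GcQ ζ s (r + 1) + ζ ^ (s + 1) * x) r

lemma GcQ_l (ζ : F) (r : ℕ) : GcQ ζ 0 r = 1 := rfl

lemma GcQ_r (ζ : F) (s : ℕ) : GcQ ζ s 0 = 1 := by cases s <;> rfl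

lemma GcQ_s (ζ : F) (s r : ℕ) :
    GcQ ζ (s + 1) (r + 1) = GcQ ζ s (r + 1) + ζ ^ (s + 1) * GcQ ζ (s + 1) r := rfl

lemma GcQ_rel (ζ : F) (s : ℕ) : ∀ r, (∑ t ∈ Finset.range (r + 1), ζ ^ t) * GcQ ζ s (r + 1) =
    (∑ t ∈ Finset.range (s + r + 1), ζ ^ t) * GcQ ζ s r := by
  induction s with
  | zero => intro r; rw [GcQ_l, GcQ_l, Nat.zero_add]
  | succ s ih =>
    intro r
    induction r with
    | zero =>
      have := ih 0
      rw [GcQ_r, Nat.add_zero] at this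
      rw [GcQ_s, GcQ_r, Nat.add_zero, Finset.sum_range_succ _ (s + 1), mul_add, this]
      simp
    | succ r ih2 =>
      have h1 := ih (r + 1)
      have h2 := GcQ_s ζ s r
      rw [show s + 1 + r + 1 = s + (r + 1) + 1 by omega] at ih2
      rw [GcQ_s ζ s (r + 1), show s + 1 + (r + 1) + 1 = s + (r + 1) + 1 + 1 by omega,
        Finset.sum_range_succ _ (s + (r + 1) + 1), mul_add, h1, Finset.sum_range_succ _ (r + 1)]
      have h3 : ζ ^ (s + (r + 1) + 1) = ζ ^ (s + 1) * ζ ^ (r + 1) := by ring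
      rw [h3]
      linear_combination ζ ^ (s + 1) * ih2 - (∑ t ∈ Finset.range (s + (r + 1) + 1), ζ ^ t) * h2

lemma GcQ_one (ζ : F) (s : ℕ) : GcQ ζ s 1 = ∑ t ∈ Finset.range (s + 1), ζ ^ t := by
  simpa [GcQ_r] using GcQ_rel ζ s 0

lemma GcQ_zero {ζ : F} {a : ℕ} (h0 : ∑ r ∈ Finset.range a, ζ ^ r = 0)
    (h1 : ∀ i, 0 < i → i < a → ∑ r ∈ Finset.range i, ζ ^ r ≠ 0) (m : ℕ) :
    ∀ s r, s < a → r < a → s + r = a + m → GcQ ζ s r = 0 := by
  induction m with
  | zero =>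
    intro s r hs hr h
    obtain ⟨r, rfl⟩ : ∃ r', r = r' + 1 := ⟨r - 1, by omega⟩
    have := GcQ_rel ζ s r
    rw [show s + r + 1 = a by omega, h0, zero_mul] at this
    exact (mul_eq_zero.1 this).resolve_left (h1 _ (by omega) hr)
  | succ m ih =>
    intro s r hs hr h
    obtain ⟨r, rfl⟩ : ∃ r', r = r' + 1 := ⟨r - 1, by omega⟩
    obtain ⟨s, rfl⟩ : ∃ s', s = s' + 1 := ⟨s - 1, by omega⟩
    rw [GcQ_s, ih s (r + 1) (by omega) hr (by omega), ih (s + 1) r hs (by omega) (by omega)]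
    simp

lemma GcQ_root [IsAlgClosed F] {a : ℕ} (h2 : 2 ≤ a) (h : (a : F) ≠ 0 ∨ a.Prime) :
    ∃ ζ : F, ∑ r ∈ Finset.range a, ζ ^ r = 0 ∧
      ∀ i, 0 < i → i < a → ∑ r ∈ Finset.range i, ζ ^ r ≠ 0 := by
  by_cases h0 : (a : F) = 0
  · have hp : a.Prime := h.resolve_left (fun h => h h0)
    refine ⟨1, by simpa using h0, fun i hi hia hs => ?_⟩
    have hi0 : (i : F) = 0 := by simpa using hs
    have hc : Nat.Coprime i a :=
      (Nat.Coprime.symm ((Nat.Prime.coprime_iff_not_dvd hp).2 (Nat.not_dvd_of_pos_of_lt hi hia)))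
    have hz : IsCoprime ((i : ℤ) : F) ((a : ℤ) : F) := by
      have := (Nat.isCoprime_iff_coprime.2 hc).map (Int.castRingHom F)
      simpa using this
    obtain ⟨u, v, huv⟩ := hz
    simp [hi0, h0] at huv
  · have : NeZero (a : F) := ⟨h0⟩
    have : NeZero a := ⟨by omega⟩
    obtain ⟨ζ, hζ⟩ := HasEnoughRootsOfUnity.exists_primitiveRoot F a
    refine ⟨ζ, hζ.geom_sum_eq_zero (by omega), fun i hi hia hs => ?_⟩
    have h1 : ζ ^ i = 1 := by
      have := mul_geom_sum ζ i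
      rw [hs, mul_zero] at this
      exact (sub_eq_zero.1 this.symm)
    exact hζ.pow_ne_one_of_pos_of_lt (by omega) hia h1

end gauss

theorem goodC_of (F : Type*) [Field F] [IsAlgClosed F] [Algebra F k] {a : ℕ} (h2 : 2 ≤ a)
    (h : (a : F) ≠ 0 ∨ a.Prime) : GoodC k a := by
  obtain ⟨ζ, h0, h1⟩ := GcQ_root h2 h
  refine ⟨fun s => algebraMap F k (ζ ^ s), fun s r => algebraMap F k (GcQ ζ s r), fun s => ?_,
    fun r => ?_, fun s r => ?_, fun s r hs hr e => ?_, fun s hs => ?_,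
    fun s x => Algebra.commutes _ x, fun s x => Algebra.commutes _ x⟩
  · simp only [GcQ_r, map_one]
  · simp only [GcQ_l, map_one, pow_zero, mul_one]
  · simp only [GcQ_s, mul_comm (ζ ^ (s + 1)), map_add, map_mul]
  · simp only [GcQ_zero h0 h1 0 s r (by omega) (by omega) e, map_zero]
  · simp only [GcQ_one]
    exact (map_ne_zero _).2 (h1 _ (by omega) hs)

end Vale.Agent.P200G
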