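import Vale.Agent.P200G.GDef
import Vale.Agent.P200M.Top2

namespace Vale.Agent.P200G

open Module P200 P200L P200D MvPolynomial

universe u

section
open TensorProduct P200M

theorem TopG_frame {K D : Type*} [Field K] [DivisionRing D] [Algebra K D] {m : ℕ} (M : Fin (m + 2) → D ⊗[K] MvPolynomial (Fin (m + 2)) K)
    (hM : ∀ i j, Commute (M i) (M j)) (I : Ideal (MvPolynomial (Fin (m + 2)) K))
    (Γ : Fin (m + 2) → Fin (m + 2) → D)
    (hΓ : ∀ i i', i ≠ i' → ∀ k l, Commute (Γ i k) (Γ i' l))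
    (hMΓ : ∀ i, M i = ∑ k, Γ i k ⊗ₜ[K] X k)
    (hs : ∀ k, (1 : D) ⊗ₜ[K] (X k : MvPolynomial (Fin (m + 2)) K) ∈
      Submodule.span D (Set.range M))
    {c : ℕ} {a0 a1 b : ℕ}
    (hpow : ∀ i : Fin (m + 2), (i : ℕ) < c → ∃ u ∈ (ipart I (b + 1)).baseChange D,
      ∃ w : Fin (m + 2) → D ⊗[K] MvPolynomial (Fin (m + 2)) K, (∀ k, w k ∈ Bd K D (m + 2) b) ∧
        M i ^ (b + 1) = u + ∑ k ∈ Finset.univ.filter (fun k : Fin (m + 2) => c ≤ k), w k * M k)
    {f0 f1 : MvPolynomial (Fin (m + 2)) K} (hf0 : f0 ∈ ipart I a0) (hf1 : f1 ∈ ipart I a1)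
    (N : ℕ) (hN : ∀ y ∈ Bd K D (m + 2) N,
      y ∈ Ideal.span ({(1 : D) ⊗ₜ[K] f0, 1 ⊗ₜ[K] f1} ∪ M '' {k | 2 ≤ (k : ℕ)})) :
    ∃ W : ℕ → Submodule D (VV D (m + 2)), HW W ∧ UpW W ∧ Pow c (b + 1) W ∧
      Two a0 a1 W ∧ (∀ d, finrank D (W d) = finrank K (ipart I d)) ∧
      ∀ p j, tW W p j = tt (mX K (m + 2)) (homogeneousSubmodule (Fin (m + 2)) K) (ipart I) p j := by
  have h1 : ∀ i, M i ∈ Bd K D (m + 2) 1 := fun i => by
    rw [hMΓ]
    exact Submodule.sum_mem _ fun k _ =>
      Submodule.tmul_mem_baseChange_of_mem _ (isHomogeneous_X _ _)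
  classical
  let Ψ := Finsupp.linearCombination D (mono M hM)
  let W : ℕ → Submodule D ((Fin (m + 2) →₀ ℕ) →₀ D) := fun d =>
    Finsupp.supported D D (expo (m + 2) d : Set (Fin (m + 2) →₀ ℕ)) ⊓
      ((ipart I d).baseChange D).comap Ψ
  have hsurj := fr_surj M hM hs
  have hinj := (fr_bij M hM h1 hs).1
  have hshift : ∀ d i, ∀ v ∈ Finsupp.supported D D (expo (m + 2) d : Set (Fin (m + 2) →₀ ℕ)),
      v.mapDomain (· + Finsupp.single i 1) ∈
        Finsupp.supported D D (expo (m + 2) (d + 1) : Set (Fin (m + 2) →₀ ℕ)) := by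
    intro d i v hv γ hγ
    obtain ⟨δ, hδ, rfl⟩ := Finset.mem_image.mp (Finsupp.mapDomain_support hγ)
    have := mem_expo.mp (hv hδ)
    rw [Finset.mem_coe, mem_expo, map_add, this, Finsupp.degree_single]
  have hW : ∀ d, ∀ w ∈ W d, ∀ β ∈ w.support, β.degree = d := fun d w hw β hβ =>
    mem_expo.1 (hw.1 hβ)
  have hF : ∀ {f a}, f ∈ ipart I a → ∃ F ∈ W a, Ψ F = 1 ⊗ₜ f := by
    intro f a hf
    obtain ⟨F, h2, h3⟩ := hsurj a (1 ⊗ₜ f) (Submodule.tmul_mem_baseChange_of_mem _ hf.2)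
    refine ⟨F, ⟨h2, Submodule.mem_comap.2 ?_⟩, h3⟩
    rw [h3]
    exact Submodule.tmul_mem_baseChange_of_mem _ hf
  obtain ⟨F0, hF0, e0⟩ := hF hf0
  obtain ⟨F1, hF1, e1⟩ := hF hf1
  have htl : ∀ k : Fin (m + 2), 2 ≤ (k : ℕ) → tl (Finsupp.single k 1) ≠ 0 := by
    intro k hk
    rw [tl_single (by rintro rfl; simp at hk) (by rintro rfl; simp at hk)]
    simp
  have hmono : ∀ i, mono M hM (Finsupp.single i N) ∈
      Ideal.span ({(1 : D) ⊗ₜ[K] f0, 1 ⊗ₜ[K] f1} ∪ M '' {k | 2 ≤ (k : ℕ)}) := fun i =>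
    hN _ (by simpa [Finsupp.degree_single] using mono_mem M hM h1 (Finsupp.single i N))
  refine ⟨W, fun d => inf_le_left, (by
      rintro d i w ⟨hw1, hw2⟩
      refine ⟨hshift _ i w hw1, Submodule.mem_comap.mpr ?_⟩
      rw [Finsupp.lmapDomain_apply, lc_shift]
      exact bc_mul (p := ipart I d) (r := ipart I (d + 1))
        (fun x hx y hy => ⟨Ideal.mul_mem_right _ _ hx.1, IsHomogeneous.mul hx.2 hy⟩) hw2 (h1 i)),
    (by
      intro i hi
      obtain ⟨u, hu, w, hw, e⟩ := hpow i hi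
      choose v hv hv' using fun k => hsurj _ _ (hw k)
      let r := ∑ k ∈ Finset.univ.filter (fun k : Fin (m + 2) => c ≤ k),
        (v k).mapDomain (· + Finsupp.single k 1)
      have hr : ∀ γ, r γ ≠ 0 → ∃ k : Fin (m + 2), c ≤ (k : ℕ) ∧ γ k ≠ 0 := by
        intro γ hγ
        rw [Finsupp.finsetSum_apply] at hγ
        obtain ⟨k, hk, hγ⟩ := Finset.exists_ne_zero_of_sum_ne_zero hγ
        obtain ⟨δ, _, rfl⟩ :=
          Finset.mem_image.mp (Finsupp.mapDomain_support (Finsupp.mem_support_iff.mpr hγ))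
        exact ⟨k, (Finset.mem_filter.1 hk).2, by simp⟩
      refine ⟨Finsupp.single (Finsupp.single i (b + 1)) 1 - r, ?_, ?_, ?_⟩
      · refine ⟨sub_mem (Finsupp.single_mem_supported _ _ (by simp [mem_expo]))
          (Submodule.sum_mem _ fun k _ => hshift _ k _ (hv k)), ?_⟩
        refine Submodule.mem_comap.mpr ?_
        rw [map_sub, map_sum]
        simp only [Ψ, lc_shift, Finsupp.linearCombination_single, one_smul, mono_single]
        simp only [hv', e, add_sub_cancel_right]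
        exact hu
      · have : r (Finsupp.single i (b + 1)) = 0 := by
          by_contra hne
          obtain ⟨k, hk, hk0⟩ := hr _ hne
          refine hk0 (Finsupp.single_eq_of_ne ?_)
          rintro rfl
          omega
        rw [Finsupp.sub_apply, this, Finsupp.single_eq_same, sub_zero]
        exact one_ne_zero
      · intro γ hγ
        by_cases hγ' : γ = Finsupp.single i (b + 1)
        · exact Or.inl hγ'
        · refine Or.inr (hr γ fun h => Finsupp.mem_support_iff.mp hγ ?_)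
          rw [Finsupp.sub_apply, h, Finsupp.single_eq_of_ne hγ', sub_zero]), ⟨F0, hF0, F1, hF1,
    (by
      have := fr_proj M hM h1 hs (fun β => if tl β = 0 then Polynomial.X ^ β 1 else 0)
        (fun β δ => by
          simp only [tl_add, Finsupp.add_eq_zero_iff, Finsupp.add_apply, pow_add]
          by_cases hβ : tl β = 0 <;> by_cases hδ : tl δ = 0 <;> simp [hβ, hδ])
        (fun β p => by
          split_ifs
          · exact Polynomial.X_pow_mul
          · simp)
        (fun k hk => if_neg (htl k hk)) e0 e1 _ (hmono 0)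
      simp only [tl_s0, if_true, Finsupp.single_eq_of_ne (Fin.zero_ne_one (n := m)).symm,
        pow_zero] at this
      convert this <;> simp only [prg]),
    (by
      by_contra hne
      push Not at hne
      obtain ⟨A, B, h⟩ := fr_proj M hM h1 hs (fun β => if tl β = 0 ∧ β 0 = 0 then 1 else 0)
        (fun β δ => by
          simp only [tl_add, Finsupp.add_eq_zero_iff, Finsupp.add_apply, Nat.add_eq_zero_iff]
          by_cases hβ : tl β = 0 <;> by_cases hδ : tl δ = 0 <;> by_cases hβ' : β 0 = 0 <;>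
            by_cases hδ' : δ 0 = 0 <;> simp [hβ, hδ, hβ', hδ'])
        (fun β p => by split_ifs <;> simp)
        (fun k hk => if_neg fun h => htl k hk h.1) e0 e1 _ (hmono 1)
      have hz : ∀ {F a}, F ∈ W a → F (Finsupp.single 1 a) = 0 → Finsupp.linearCombination D
          (fun β : Fin (m + 2) →₀ ℕ => if tl β = 0 ∧ β 0 = 0 then (1 : Polynomial D) else 0) F
            = 0 := by
        intro F a hFa hF'
        rw [Finsupp.linearCombination_apply, Finsupp.sum]
        refine Finset.sum_eq_zero fun β hβ => ?_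
        rw [if_neg, smul_zero]
        rintro ⟨h2, h3⟩
        have h4 := mk2_tl β
        have h5 := degree_mk2 (tl β) (β 0) (β 1)
        rw [h4, hW _ _ hFa β hβ, h2, h3, map_zero, zero_add, zero_add] at h5
        rw [h2, h3, ← h5] at h4
        refine Finsupp.mem_support_iff.1 hβ ?_
        rw [← h4]
        simpa [mk2] using hF'
      rw [hz hF0 hne.1, hz hF1 hne.2, tl_s1] at h
      simp at h)⟩, fun d => ?_, fun p j =>
      transfer M hM Γ hΓ hMΓ hs _ (fun _ => inf_le_right) p j⟩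
  rw [← finrank_bc (D := D)]
  have e : (W d).map Ψ = (ipart I d).baseChange D := by
    apply le_antisymm
    · rintro _ ⟨w, hw, rfl⟩
      exact hw.2
    · intro y hy
      obtain ⟨v, hv, rfl⟩ := hsurj d y (Submodule.baseChange_mono _ inf_le_right hy)
      exact ⟨v, ⟨hv, hy⟩, rfl⟩
  rw [← e]
  exact (LinearEquiv.finrank_eq (Submodule.equivMapOfInjective Ψ hinj _))

theorem TopG_core {K : Type*} {k : Type u} {D : Type*} [Field K] [Field k] [Algebra K k]
    [DivisionRing D] [Algebra K D]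
    [Algebra k D] [IsScalarTower K k D] {m c b : ℕ} (hc : c + 2 ≤ m + 2) (a : Fin (c + 2) → ℕ)
    (ha : ∀ j, a j ≤ b + 1)
    (f : Fin (c + 2) → MvPolynomial (Fin (m + 2)) K) (hf : ∀ j, (f j).IsHomogeneous (a j))
    (I : Ideal (MvPolynomial (Fin (m + 2)) K))
    (hI : ∀ j, f j ∈ I) (lam : Fin (m + 2) → Fin (c + 2) → k)
    (hlam : ∀ i, lam (Fin.castLE hc i) = Pi.single i 1)
    (ρ : MvPolynomial (Fin (m + 2)) k →ₐ[k] MvPolynomial (Fin (c + 2)) k)
    (hρ : ∀ p, ρ (X p) = ∑ l, C (lam p l) * X l)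
    (u : Fin (c + 2) → MvPolynomial (Fin (c + 2)) k) (hu : ∀ j, (u j).IsHomogeneous (b + 1 - a j))
    (hreg : IsReg fun j => ρ (map (algebraMap K k) (f j)) * u j)
    (γ τ w : Fin (c + 2) → Fin (c + 2) → D)
    (hcomm : ∀ a a', a ≠ a' → ∀ m l, Commute (γ a m) (γ a' l))
    (h1 : ∀ a, (∑ m, γ a m ⊗ₜ[k] (X m : MvPolynomial (Fin (c + 2)) k)) ^ (b + 1) =
      ∑ j, τ a j ⊗ₜ[k] (ρ (map (algebraMap K k) (f j)) * u j))
    (hw : ∀ a a', ∑ m, γ a m * w m a' = if a = a' then 1 else 0)
    (hex : ∀ x : Fin (c + 2) → D, x ∈ Submodule.span D ({Pi.single 0 1, Pi.single 1 1} ∪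
        τ '' {i | 2 ≤ (i : ℕ)})) :
    ∃ W : ℕ → Submodule D (VV D (m + 2)), HW W ∧ UpW W ∧ Pow (c + 2) (b + 1) W ∧
      Two (a 0) (a 1) W ∧ (∀ d, finrank D (W d) = finrank K (ipart I d)) ∧
      ∀ p j, tW W p j = tt (mX K (m + 2)) (homogeneousSubmodule (Fin (m + 2)) K) (ipart I) p j := by
  classical
  let θ : k →ₐ[K] D := IsScalarTower.toAlgHom K k D
  have hθ : ∀ r d, Commute (θ r) d := fun r d => Algebra.commutes r d
  let ψ : MvPolynomial (Fin (m + 2)) k →+* D ⊗[K] MvPolynomial (Fin (m + 2)) K :=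
    (Algebra.TensorProduct.map θ (AlgHom.id K _)).toRingHom.comp
      (algebraTensorAlgEquiv K k).symm.toRingEquiv.toRingHom
  have ψm : ∀ u r, ψ (monomial u r) = θ r ⊗ₜ monomial u 1 := by
    intro u r; simp [ψ]
  have ψX : ∀ p, ψ (X p) = 1 ⊗ₜ X p := by
    intro p; simp [ψ]
  have ψC : ∀ r, ψ (C r) = θ r ⊗ₜ 1 := fun r => ψm 0 r
  have ψmap : ∀ g, ψ (map (algebraMap K k) g) = 1 ⊗ₜ g := by
    intro g; simp [ψ]
  have ψcomm : ∀ g y, Commute (ψ g) y := by
    intro g y
    induction g using MvPolynomial.induction_on' with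
    | monomial u r =>
      rw [ψm]
      induction y using TensorProduct.induction_on with
      | zero => simp
      | tmul d s => simp [Commute, SemiconjBy, (hθ r d).eq, mul_comm]
      | add x y hx hy => exact hx.add_right hy
    | add p q hp hq => rw [map_add]; exact hp.add_left hq
  have ψhom : ∀ d g, g.IsHomogeneous d → ψ g ∈ Bd K D (m + 2) d := by
    intro d g hg
    rw [g.as_sum, map_sum]
    refine Submodule.sum_mem _ fun u hu => ?_
    rw [ψm]
    exact Submodule.tmul_mem_baseChange_of_mem _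
      (isHomogeneous_monomial _ (mem_expo.mp (mem_hom_iff.mp hg u hu)))
  let ρ' : MvPolynomial (Fin (m + 2)) k →ₐ[k] MvPolynomial (Fin (m + 2)) k :=
    (rename (Fin.castLE hc)).comp ρ
  have hρ' : ∀ p, ρ' (X p) = ∑ l, C (lam p l) * X (Fin.castLE hc l) := by
    intro p; simp [ρ', hρ, map_sum]
  have hρ1 : ∀ p, (ρ' (X p)).IsHomogeneous 1 := fun p => by
    rw [hρ']; exact IsHomogeneous.sum _ _ _ fun l _ => isHomogeneous_C_mul_X _ _
  have hρh : ∀ d g, g.IsHomogeneous d → (ρ g).IsHomogeneous d := by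
    intro d g hg
    have h3 : ρ = aeval fun p => ρ (X p) := by
      ext1 p; simp
    have := hg.aeval (fun p => ρ (X p)) (n := 1) fun p => by
      rw [hρ]; exact IsHomogeneous.sum _ _ _ fun l _ => isHomogeneous_C_mul_X _ _
    rwa [one_mul, ← h3] at this
  have hρr : ∀ g, ρ (rename (Fin.castLE hc) g) = g := by
    intro g
    have : ρ.comp (rename (Fin.castLE hc)) = AlgHom.id k _ := by
      ext1 j
      simp [hρ, hlam, Pi.single_apply, apply_ite C]
    exact congr($this g)
  let N : Fin (c + 2) → D ⊗[K] MvPolynomial (Fin (m + 2)) K :=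
    fun a => ∑ l, γ a l ⊗ₜ X (Fin.castLE hc l)
  let M : Fin (m + 2) → D ⊗[K] MvPolynomial (Fin (m + 2)) K := fun p =>
    if h : (p : ℕ) < c + 2 then N ⟨p, h⟩ else ψ (X p - ρ' (X p))
  have hM : ∀ i j, Commute (M i) (M j) := by
    intro i j
    simp only [M]
    split_ifs with hi hj
    · by_cases hij : (⟨i, hi⟩ : Fin (c + 2)) = ⟨j, hj⟩
      · rw [hij]
      · refine Commute.sum_left _ _ _ fun m _ => Commute.sum_right _ _ _ fun l _ => ?_
        simp [Commute, SemiconjBy, (hcomm _ _ hij m l).eq, mul_comm]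
    · exact (ψcomm _ _).symm
    · exact ψcomm _ _
    · exact ψcomm _ _
  have hspan : ∀ l : Fin (c + 2),
      (1 : D) ⊗ₜ[K] (X (Fin.castLE hc l) : MvPolynomial (Fin (m + 2)) K) ∈
      Submodule.span D (Set.range M) := by
    intro l
    obtain ⟨u, hu⟩ := left_inverse γ w hw l
    have : (1 : D) ⊗ₜ[K] (X (Fin.castLE hc l) : MvPolynomial (Fin (m + 2)) K) =
        ∑ a, u a • N a := by
      simp only [N, Finset.smul_sum, smul_tmul', smul_eq_mul]
      rw [Finset.sum_comm]
      simp [← sum_tmul, hu, ite_tmul]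
    rw [this]
    refine Submodule.sum_mem _ fun a _ => Submodule.smul_mem _ _ (Submodule.subset_span
      ⟨Fin.castLE hc a, ?_⟩)
    simp [M]
  let ψA : MvPolynomial (Fin (m + 2)) k →ₐ[k] D ⊗[K] MvPolynomial (Fin (m + 2)) K :=
    { ψ with commutes' := fun r => ψC r }
  let Φ : D ⊗[k] MvPolynomial (Fin (c + 2)) k →ₐ[k] D ⊗[K] MvPolynomial (Fin (m + 2)) K :=
    Algebra.TensorProduct.lift Algebra.TensorProduct.includeLeft
      (ψA.comp (rename (Fin.castLE hc))) fun x y => (ψcomm _ _).symm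
  have hΦ : ∀ (x : D) (g : MvPolynomial (Fin (c + 2)) k),
      Φ (x ⊗ₜ[k] g) = x • ψ (rename (Fin.castLE hc) g) := by
    intro x g
    rw [smul_eq_tmul_mul]
    rfl
  have hsub : ∀ e (g : MvPolynomial (Fin (m + 2)) k), g.IsHomogeneous (e + 1) →
      ∃ W : Fin (m + 2) → MvPolynomial (Fin (m + 2)) k, (∀ p, (W p).IsHomogeneous e) ∧
        ψ (ρ' g) = ψ g +
          ∑ p ∈ Finset.univ.filter (fun p : Fin (m + 2) => c + 2 ≤ p), ψ (W p) * M p := by
    intro e g hg
    obtain ⟨W, hW1, hW2⟩ := P200E.Top_hom_sub ρ' hρ1 hg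
    refine ⟨W, hW1, ?_⟩
    rw [hW2, map_add, map_sum, Finset.sum_filter]
    congr 1
    refine Finset.sum_congr rfl fun p _ => ?_
    split_ifs with hp
    · simp only [M, dif_neg (not_lt.mpr hp), map_mul]
    · have : X p - ρ' (X p) = 0 := by
        obtain ⟨p', rfl⟩ : ∃ p' : Fin (c + 2), p = Fin.castLE hc p' := ⟨⟨p, not_le.mp hp⟩, rfl⟩
        simp [hρ', hlam, Pi.single_apply, apply_ite C]
      rw [this, mul_zero, map_zero]
  let G : Fin (c + 2) → MvPolynomial (Fin (m + 2)) k := fun j =>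
    rename (Fin.castLE hc) (u j) * map (algebraMap K k) (f j)
  have hG : ∀ j, (G j).IsHomogeneous (b + 1) := fun j => by
    have := ((hu j).rename_isHomogeneous (f := Fin.castLE hc)).mul ((hf j).map (algebraMap K k))
    rwa [Nat.sub_add_cancel (ha j)] at this
  have hGρ : ∀ j, ρ' (G j) = rename (Fin.castLE hc) (ρ (map (algebraMap K k) (f j)) * u j) := by
    intro j
    simp only [ρ', G, AlgHom.comp_apply, map_mul, hρr, mul_comm]
  have hGψ : ∀ j, ψ (G j) = ψ (rename (Fin.castLE hc) (u j)) * 1 ⊗ₜ f j := fun j => by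
    simp only [G, map_mul, ψmap]
  have e1 : ∀ i, N i ^ (b + 1) = ∑ j, τ i j • ψ (ρ' (G j)) := by
    intro i
    have := congrArg Φ (h1 i)
    rw [map_pow, map_sum, map_sum] at this
    simp only [hΦ, rename_X, ψX, smul_tmul', smul_eq_mul, mul_one] at this
    simp only [N, hGρ]
    exact this
  choose W hW1 hW2 using fun j => hsub b _ (hG j)
  let Γ : Fin (m + 2) → Fin (m + 2) → D := fun p q =>
    if h : (p : ℕ) < c + 2 then ∑ l, if Fin.castLE hc l = q then γ ⟨p, h⟩ l else 0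
    else θ ((if p = q then 1 else 0) - ∑ l, if Fin.castLE hc l = q then lam p l else 0)
  refine TopG_frame M hM I Γ ?_ ?_ ?_ (c := c + 2) ?_ ⟨hI 0, hf 0⟩ ⟨hI 1, hf 1⟩
    ((c + 2) * (b + 1) + 1) ?_
  · intro i j hij q q'
    simp only [Γ]
    by_cases hi : (i : ℕ) < c + 2
    · by_cases hj : (j : ℕ) < c + 2
      · rw [dif_pos hi, dif_pos hj]
        refine Commute.sum_left _ _ _ fun l0 _ => Commute.sum_right _ _ _ fun l _ => ?_
        split_ifs
        · exact hcomm _ _ (fun h => hij (Fin.ext (congrArg (fun x : Fin (c + 2) => (x : ℕ)) h))) l0 l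
        all_goals simp
      · rw [dif_neg hj]
        exact (hθ _ _).symm
    · rw [dif_neg hi]
      exact hθ _ _
  · intro i
    simp only [M, Γ]
    by_cases hi : (i : ℕ) < c + 2
    · simp only [dif_pos hi, N, sum_tmul, ite_tmul]
      rw [Finset.sum_comm]
      simp
    · simp only [dif_neg hi, hρ', map_sub, map_sum, map_mul, ψX, ψC, sub_tmul, sum_tmul,
        apply_ite θ, map_one, map_zero, ite_tmul, Finset.sum_sub_distrib]
      rw [Finset.sum_comm]
      simp
  · intro p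
    by_cases hp : (p : ℕ) < c + 2
    · exact hspan ⟨p, hp⟩
    · have : (1 : D) ⊗ₜ[K] (X p : MvPolynomial (Fin (m + 2)) K) =
          M p + ∑ l, θ (lam p l) • ((1 : D) ⊗ₜ[K] X (Fin.castLE hc l)) := by
        simp [M, dif_neg hp, hρ', ψX, ψC, map_sum, smul_tmul']
      rw [this]
      exact add_mem (Submodule.subset_span ⟨p, rfl⟩)
        (Submodule.sum_mem _ fun l _ => Submodule.smul_mem _ _ (hspan l))
  · intro i hi
    let t : Fin (c + 2) := ⟨i, hi⟩
    refine ⟨∑ j, τ t j • ψ (G j), Submodule.sum_mem _ fun j _ => Submodule.smul_mem _ _ ?_,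
      fun p => ∑ j, τ t j • ψ (W j p), fun p => Submodule.sum_mem _ fun j _ =>
        Submodule.smul_mem _ _ (ψhom _ _ (hW1 j p)), ?_⟩
    · rw [hGψ]
      refine bc_mul (p := homogeneousSubmodule (Fin (m + 2)) K (b + 1 - a j))
        (q := ipart I (a j)) (r := ipart I (b + 1)) (fun x hx y hy => ⟨Ideal.mul_mem_left _ _ hy.1, ?_⟩)
        (ψhom _ _ ((hu j).rename_isHomogeneous (f := Fin.castLE hc)))
        (Submodule.tmul_mem_baseChange_of_mem _ ⟨hI j, hf j⟩)
      have := IsHomogeneous.mul hx hy.2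
      rwa [Nat.sub_add_cancel (ha j)] at this
    · have e2 : M i = N t := dif_pos hi
      rw [e2, e1]
      simp only [hW2, smul_add, Finset.sum_add_distrib, Finset.smul_sum, Finset.sum_mul]
      congr 1
      rw [Finset.sum_comm]
      refine Finset.sum_congr rfl fun p _ => Finset.sum_congr rfl fun j _ => ?_
      rw [smul_eq_tmul_mul, smul_eq_tmul_mul, mul_assoc]
  · set L := Ideal.span ({(1 : D) ⊗ₜ[K] f 0, 1 ⊗ₜ[K] f 1} ∪ M '' {k | 2 ≤ (k : ℕ)}) with hL
    have l1 : ∀ p : Fin (m + 2), 2 ≤ (p : ℕ) → M p ∈ L := fun p hp =>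
      Ideal.subset_span (Or.inr ⟨p, hp, rfl⟩)
    have l2 : ∀ V : Fin (m + 2) → MvPolynomial (Fin (m + 2)) k,
        ∑ p ∈ Finset.univ.filter (fun p : Fin (m + 2) => c + 2 ≤ p), ψ (V p) * M p ∈ L :=
      fun V => L.sum_mem fun p hp => L.mul_mem_left _ (l1 p (by
        have := (Finset.mem_filter.1 hp).2
        omega))
    have l3 : ∀ (d : D), ∀ y ∈ L, d • y ∈ L := fun d y hy => by
      rw [smul_eq_tmul_mul]
      exact L.mul_mem_left _ hy
    have l4 : ∀ x : Fin (c + 2) → D, ∑ j, x j • ψ (ρ' (G j)) ∈ L := by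
      intro x
      have hx := hex x
      induction hx using Submodule.span_induction with
      | mem x hx =>
        rcases hx with (rfl | rfl) | ⟨i, hi, rfl⟩
        · rw [Finset.sum_eq_single 0 (fun j _ hj => by simp [hj]) (by simp), hW2, hGψ]
          exact l3 _ _ (add_mem (L.mul_mem_left _ (Ideal.subset_span (Or.inl (Or.inl rfl))))
            (l2 _))
        · rw [Finset.sum_eq_single 1 (fun j _ hj => by simp [hj]) (by simp), hW2, hGψ]
          exact l3 _ _ (add_mem (L.mul_mem_left _ (Ideal.subset_span (Or.inl (Or.inr rfl))))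
            (l2 _))
        · have e2 : M (Fin.castLE hc i) = N i := dif_pos i.2
          rw [← e1, ← e2, pow_succ]
          exact L.mul_mem_left _ (l1 _ hi)
      | zero => simp
      | add x y _ _ hx hy =>
        simp only [Pi.add_apply, add_smul, Finset.sum_add_distrib]
        exact add_mem hx hy
      | smul d x _ hx =>
        simp only [Pi.smul_apply, smul_eq_mul, mul_smul, ← Finset.smul_sum]
        exact l3 _ _ hx
    have l5 : ∀ j, ψ (ρ' (G j)) ∈ L := fun j => by
      have := l4 (Pi.single j 1)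
      rwa [Finset.sum_eq_single j (fun i _ hi => by simp [hi]) (by simp), Pi.single_eq_same,
        one_smul] at this
    rintro _ ⟨y, rfl⟩
    induction y using TensorProduct.induction_on with
    | zero => simp
    | add x y hx hy => rw [map_add]; exact add_mem hx hy
    | tmul d s =>
      have hs : (map (algebraMap K k) s.1).IsHomogeneous ((c + 2) * (b + 1) + 1) :=
        IsHomogeneous.map s.2 _
      obtain ⟨V, -, hV⟩ := hsub _ _ hs
      have h2 := all_mem (Nat.succ_pos b) (fun j => by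
        have := (hρh _ _ ((hf j).map (algebraMap K k))).mul (hu j)
        rwa [Nat.add_sub_cancel' (ha j)] at this) hreg (hρh _ _ hs)
      obtain ⟨h, hh⟩ := Ideal.mem_span_range_iff_exists_fun.1 h2
      have h3 : ψ (ρ' (map (algebraMap K k) s.1)) ∈ L := by
        change ψ (rename (Fin.castLE hc) (ρ (map (algebraMap K k) s.1))) ∈ L
        rw [← hh, map_sum, map_sum]
        refine L.sum_mem fun j _ => ?_
        rw [map_mul, map_mul, ← hGρ]
        exact L.mul_mem_left _ (l5 j)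
      rw [hV, ψmap] at h3
      have h4 := l3 d _ ((L.add_mem_iff_left (l2 V)).1 h3)
      simpa [smul_tmul'] using h4

end

open TensorProduct P200M in
theorem topG {K : Type u} [Field K] {m c : ℕ} (hc : c + 2 ≤ m + 2) (a : Fin (c + 2) → ℕ)
    (h2 : ∀ i, 2 ≤ a i) (hmono : Monotone a)
    (f : Fin (c + 2) → MvPolynomial (Fin (m + 2)) K) (hf : ∀ i, (f i).IsHomogeneous (a i))
    (hreg : IsReg f) (I : Ideal (MvPolynomial (Fin (m + 2)) K)) (hI : ∀ i, f i ∈ I) :
    ∃ (D : Type u) (_ : DivisionRing D) (_ : Algebra K D) (_ : Algebra (AlgebraicClosure K) D)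
      (W : ℕ → Submodule D (VV D (m + 2))), HW W ∧ UpW W ∧ Pow (c + 2) (a (Fin.last _)) W ∧
      Two (a 0) (a 1) W ∧ (∀ d, finrank D (W d) = finrank K (ipart I d)) ∧
      ∀ p j, tW W p j = tt (mX K (m + 2)) (homogeneousSubmodule (Fin (m + 2)) K) (ipart I) p j := by
  obtain ⟨b, hb⟩ : ∃ b, a (Fin.last _) = b + 1 := ⟨a (Fin.last _) - 1, by
    have := h2 (Fin.last _)
    omega⟩
  have ha : ∀ j, a j ≤ b + 1 := fun j => hb ▸ hmono (Fin.le_last j)
  let k := AlgebraicClosure K
  have h1 := hreg.baseChange (k := k)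
  obtain ⟨lam, hlam, h3⟩ := P200.elim hc h1
  obtain ⟨ζ, hζ⟩ := P200E.exists_QR (k := k) (a := b + 1) (by omega)
  have h4 : ∀ j, (P200.linSub lam (map (algebraMap K k) (f j))).IsHomogeneous (a j) := by
    intro j
    have := ((hf j).map (algebraMap K k)).aeval (fun j => ∑ l, C (lam j l) * X l)
      (n := 1) fun i => IsHomogeneous.sum _ _ _ fun l _ => isHomogeneous_C_mul_X _ _
    rw [one_mul] at this
    exact this
  obtain ⟨u, hu, h5⟩ := raise a _ h4 (fun j => by have := h2 j; omega) ha h3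
  obtain ⟨k', D, i1, i2, i3, i4, i5, i6, i7, γ, τ, w, hcomm, r1, hw⟩ :=
    P200E.towerA (hb ▸ h2 _) hζ _ (fun j => by
      have := (h4 j).mul (hu j)
      rwa [Nat.add_sub_cancel' (ha j)] at this) h5 _ le_rfl
  let alg : Algebra K D := ((algebraMap k D).comp (algebraMap K k)).toAlgebra'
    fun r d => Algebra.commutes _ d
  have : IsScalarTower K k D := IsScalarTower.of_algebraMap_eq fun _ => rfl
  obtain ⟨σ, hσ⟩ := exch τ (frames_indep (Nat.succ_pos b) _ γ τ w hcomm r1 hw)
  rw [hb]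
  exact ⟨D, i2, alg, i6, TopG_core hc a ha f hf I hI lam hlam (P200.linSub lam)
    (fun p => by simp [P200.linSub]) u hu h5 (fun i => γ (σ i)) (fun i => τ (σ i))
    (fun l i => w l (σ i)) (fun i j hij => hcomm _ _ (σ.injective.ne hij)) (fun i => r1 _)
    (fun i j => by rw [hw]; simp) hσ⟩

end Vale.Agent.P200G
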