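import Vale.Agent.P200G.MG
import Vale.Agent.P200G.TopG
import Vale.Agent.P200G.GoodC

namespace Vale.Agent.P200G

open Module MvPolynomial P200 P200L P200D

universe u

variable {K : Type u} [Field K] {n c : ℕ}

theorem LL_facts (hc : c ≤ n) (a : Fin c → ℕ) (h2 : ∀ i, 2 ≤ a i) (hmono : Monotone a)
    (I : Ideal (MvPolynomial (Fin n) K)) (E : Set (Fin n →₀ ℕ)) (hE : Up E)
    (hP : ∀ i : Fin c, Finsupp.single (Fin.castLE hc i) (a i) ∈ E)
    (hd : ∀ d (T : Finset (Fin n →₀ ℕ)), (∀ β, β ∈ T ↔ β ∈ E ∧ β.degree = d) →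
      T.card = finrank K (ipart I d)) {q : ℕ → ℕ}
    (hq : q = fun d => finrank K (part I d) - finrank K (part (pw K hc a) d)) :
    Up (LL hc a q) ∧ ∀ d, cnt (LL hc a q) d = finrank K (ipart I d) := by
  classical
  have hQ : ∀ β, QQ hc a β → β ∈ E := fun β ⟨i, hi⟩ => hE.le (hP i) (Finsupp.single_le_iff.mpr hi)
  have hI : ∀ d, cnt E d = finrank K (ipart I d) := fun d =>
    hd d _ fun β => by simp [mem_expo, and_comm]
  have hcnt : ∀ d, cnt (LL hc a q) d = cnt E d :=
    isLex_top (QQ hc a) E hQ q fun d => by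
      rw [hq, hI, ← finrank_mon (K := K) (QQ_up hc a), ← pw_eq]
      rfl
  have h0 : ∀ i, 0 < a i := fun i => by have := h2 i; omega
  obtain ⟨D, i1, i2, hD⟩ := exists_good K
  exact ⟨(lpp_cmp D hc a h0 hmono (fun i => hD _)
    (fun N => ⟨N + 1, Nat.lt_succ_self N, hD _⟩) E (LL hc a q) hE hQ
    (fun β h => Or.inl h) (LL_lex hc a q) hcnt).1, fun d => (hcnt d).trans (hI d)⟩

theorem tt_LL {m c : ℕ} (hc : c + 2 ≤ m + 2) (a : Fin (c + 2) → ℕ) (h2 : ∀ i, 2 ≤ a i)
    (hmono : Monotone a) (htop : ∀ i j : Fin (c + 2), 2 ≤ (i : ℕ) → 2 ≤ (j : ℕ) → a i = a j)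
    (hch : ∀ i : Fin (c + 2), 2 ≤ (i : ℕ) → (a i : K) ≠ 0 ∨ (a i).Prime)
    (f : Fin (c + 2) → MvPolynomial (Fin (m + 2)) K) (hf : ∀ i, (f i).IsHomogeneous (a i))
    (hreg : IsReg f) (I : Ideal (MvPolynomial (Fin (m + 2)) K)) (hI : ∀ i, f i ∈ I) {q : ℕ → ℕ}
    (hU : Up (LL hc a q)) (hcnt : ∀ d, cnt (LL hc a q) d = finrank K (ipart I d)) (p j : ℕ) :
    tt (mX K (m + 2)) (homogeneousSubmodule (Fin (m + 2)) K) (ipart I) p j ≤
      tt (mX K (m + 2)) (homogeneousSubmodule (Fin (m + 2)) K) (ipart (Ideal.span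
        ((fun β => (monomial β 1 : MvPolynomial (Fin (m + 2)) K)) '' LL hc a q))) p j := by
  obtain ⟨D, i1, i2, i3, W, w1, w2, w3, w4, w5, w6⟩ := topG hc a h2 hmono f hf hreg I hI
  obtain ⟨b, hb1, hb2⟩ := Nat.exists_infinite_primes (j + a (Fin.last _) + 1)
  have hab : ∀ i, a i ≤ b := fun i => by
    have := hmono (Fin.le_last i)
    omega
  have hle : ∀ d, W d ≤ if d ≤ j then W d else Pd D (m + 2) d := fun d => by
    split_ifs
    · exact le_rfl
    · exact w1 d
  obtain ⟨L, l1, l2, -, l4⟩ := MG (k := D) K (c := c + 2) (a0 := a 0) (a1 := a 1)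
    (A := a (Fin.last _)) (b := b)
    (fun h => goodC_of (AlgebraicClosure K) (h2 _) ((hch _ (by simp; omega)).imp_left
      fun h h' => h ((algebraMap K (AlgebraicClosure K)).injective
        (by rw [map_natCast, h', map_zero]))))
    (goodC_of (AlgebraicClosure K) hb2.two_le (Or.inr hb2)) m
    (fun i => if h : (i : ℕ) < c + 2 then a ⟨i, h⟩ else b)
    (fun i i' h => by
      have h' : (i : ℕ) ≤ i' := h
      simp only
      split_ifs with h1 h2 h2
      · exact hmono h'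
      · exact hab _
      · omega
      · exact le_rfl)
    (fun i => by
      split_ifs with h
      · have := h2 ⟨i, h⟩
        omega
      · omega)
    (by simp) (by simp)
    (fun i hi => by
      split_ifs with h
      · exact htop _ _ hi (by simp; omega)
      · rfl)
    (fun d => if d ≤ j then W d else Pd D (m + 2) d)
    (fun d => by
      simp only
      split_ifs
      · exact w1 d
      · exact le_rfl)
    (fun d i w hw => by
      simp only at hw ⊢
      by_cases c1 : d + 1 ≤ j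
      · rw [if_pos (by omega)] at hw
        rw [if_pos c1]
        exact w2 d i w hw
      · rw [if_neg c1]
        refine sh_Pd i d w ?_
        split_ifs at hw
        · exact w1 d hw
        · exact hw)
    (fun d hd => by rw [if_neg (by omega)]) (w3.mono hle) (w4.mono hle)
  beta_reduce at l2
  rw [← w6, tt_mon D hU]
  refine (tW_mono (hle _)).trans ((l4 p j).trans (tE_mono fun β hβ hd => ?_))
  have hlex : IsLex (fun i : Fin (m + 2) => if h : (i : ℕ) < c + 2 then a ⟨i, h⟩ else b)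
      {β | β ∈ LL hc a q ∨ j < β.degree} := by
    constructor
    · rintro β ⟨i, hi⟩
      simp only at hi
      split_ifs at hi with h
      · exact Or.inl (Or.inl ⟨⟨i, h⟩, hi⟩)
      · have := Finsupp.le_degree i β
        right; omega
    · rintro β (hβ | hβ) hn γ hd hlt
      · refine Or.inl (LL_lex hc a q β hβ ?_ γ hd hlt)
        rintro ⟨i, hi⟩
        exact hn ⟨Fin.castLE hc i, by simpa using hi⟩
      · right; rw [hd]; exact hβ
  rcases lex_nest l1 hlex hβ (by
    rw [l2, if_pos (by omega), w5, ← hcnt]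
    exact cnt_mono fun γ hγ _ => Or.inl hγ) with h | h
  · exact h
  · omega

theorem lpp_mainG (hc : c ≤ n) (a : Fin c → ℕ) (h2 : ∀ i, 2 ≤ a i) (hmono : Monotone a)
    (htop : ∀ i j : Fin c, 2 ≤ (i : ℕ) → 2 ≤ (j : ℕ) → a i = a j)
    (f : Fin c → MvPolynomial (Fin n) K) (hf : ∀ i, (f i).IsHomogeneous (a i)) (hreg : IsReg f)
    (I : Ideal (MvPolynomial (Fin n) K)) (hI : ∀ i, f i ∈ I) :
    ∃ J : Ideal (MvPolynomial (Fin n) K), J.restrictScalars K = lpp I (pw K hc a) ∧
      (((∀ i i', a i = a i') ∨ ∀ i : Fin c, 2 ≤ (i : ℕ) → (a i : K) ≠ 0 ∨ (a i).Prime) →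
        ∀ p j, betti I p j ≤ betti J p j) := by
  by_cases he : ∀ i i', a i = a i'
  · obtain ⟨J, j1, j2⟩ := lpp_main hc a h2 hmono htop f hf hreg I hI
    exact ⟨J, j1, fun _ => j2 he⟩
  rcases c with _ | _ | c
  · exact absurd (fun i => i.elim0) he
  · exact absurd (fun i i' => by rw [Fin.fin_one_eq_zero i, Fin.fin_one_eq_zero i']) he
  obtain ⟨m, rfl⟩ : ∃ m, n = m + 2 := ⟨n - 2, by omega⟩
  obtain ⟨E, h1, h3, h4⟩ := P200M.egh_two hc a h2 hmono htop f hf hreg I hI
  obtain ⟨hU, hcnt⟩ := LL_facts hc a h2 hmono I E h1 h3 h4 rfl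
  exact ⟨_, lpp_eq hc a I hU, fun h => betti_le _ _ (fun d => by rw [finrank_mon hU, hcnt])
    (tt_LL hc a h2 hmono htop (h.resolve_left he) f hf hreg I hI hU hcnt)⟩

end Vale.Agent.P200G
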