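import Vale.Agent.P200D.Fin

/-! Graded families of subspaces instead of sets of exponents. -/

namespace Vale.Agent.P200G

open Module P200 P200L P200D

variable {n : ℕ} {k : Type*} [DivisionRing k]

/-- coefficient space -/
abbrev VV (k : Type*) [DivisionRing k] (n : ℕ) := (Fin n →₀ ℕ) →₀ k

/-- homogeneous family -/
def HW (W : ℕ → Submodule k (VV k n)) : Prop := ∀ d, W d ≤ Pd k n d

/-- closed under multiplication by variables -/
def UpW (W : ℕ → Submodule k (VV k n)) : Prop := ∀ d i, ∀ w ∈ W d, sh k n i w ∈ W (d + 1)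

/-- contains the multiples of the pure powers -/
def OutW (a : Fin n → ℕ) (W : ℕ → Submodule k (VV k n)) : Prop :=
  ∀ β, Out a β → Finsupp.single β 1 ∈ W β.degree

/-- Koszul boundaries with coefficients in `W` -/
noncomputable def tW (W : ℕ → Submodule k (VV k n)) (p j : ℕ) : ℕ := tt (sh k n) (Pd k n) W p j

/-- component of last exponent `κ` -/
noncomputable def zf (k : Type*) [DivisionRing k] (n κ : ℕ) : VV k (n + 1) →ₗ[k] VV k (n + 1) where
  toFun v := v.filter fun β => β (Fin.last n) = κ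
  map_add' _ _ := Finsupp.filter_add
  map_smul' _ _ := Finsupp.filter_smul

lemma zf_apply (κ : ℕ) (v : VV k (n + 1)) (β : Fin (n + 1) →₀ ℕ) :
    zf k n κ v β = if β (Fin.last n) = κ then v β else 0 := rfl

/-- graded by the last exponent -/
def ZG (W : ℕ → Submodule k (VV k (n + 1))) : Prop := ∀ d κ, ∀ w ∈ W d, zf k n κ w ∈ W d

/-- last exponent at least `κ` -/
noncomputable def Vge (k : Type*) [DivisionRing k] (n κ : ℕ) : Submodule k (VV k (n + 1)) :=
  Finsupp.supported k k {β | κ ≤ β (Fin.last n)}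

/-- multiplication by a power of the last variable -/
noncomputable def emb (k : Type*) [DivisionRing k] (n i : ℕ) : VV k n →ₗ[k] VV k (n + 1) :=
  Finsupp.lmapDomain k k fun β => snc β i

/-- layers -/
noncomputable def layW (W : ℕ → Submodule k (VV k (n + 1))) (i d : ℕ) : Submodule k (VV k n) :=
  (W (d + i)).map (layCo k n i)

/-- stability -/
def StabW (a : ℕ) (W : ℕ → Submodule k (VV k (n + 1))) : Prop :=
  ∀ i, i + 1 < a → ∀ d l, ∀ v ∈ layW W (i + 1) d, sh k n l v ∈ layW W i (d + 1)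

/-- chains in `W1` with boundary in `W0` -/
noncomputable def YG (W1 W0 : ℕ → Submodule k (VV k n)) (p m : ℕ) :
    Submodule k (Finset (Fin n) → VV k n) :=
  ch n W1 p m ⊓ (ch n W0 (p - 1) m).comap (kos (sh k n))

/-- a central twisted Pascal triangle -/
def GoodC (k : Type*) [DivisionRing k] (a : ℕ) : Prop :=
  ∃ (t : ℕ → k) (Q : ℕ → ℕ → k), (∀ s, Q s 0 = 1) ∧ (∀ r, Q 0 (r + 1) = Q 0 r * t 0) ∧
    (∀ s r, Q (s + 1) (r + 1) = Q s (r + 1) + Q (s + 1) r * t (s + 1)) ∧
    (∀ s r, 0 < s → 0 < r → s + r = a → Q s r = 0) ∧ (∀ s, s + 1 < a → Q s 1 ≠ 0) ∧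
    (∀ s x, Commute (t s) x) ∧ ∀ s x, Commute (Q s 1) x

/-- the conclusion: comparison with a lex set -/
def Cmp (a : Fin n → ℕ) (W : ℕ → Submodule k (VV k n)) : Prop :=
  ∃ L : Set (Fin n →₀ ℕ), IsLex a L ∧ (∀ d, cnt L d = finrank k (W d)) ∧ Up L ∧
    ∀ p j, tW W p j ≤ tE k L p j

/-- the two smallest forms stay coprime in the first two variables -/
def Two {m : ℕ} (a0 a1 : ℕ) (W : ℕ → Submodule k (VV k (m + 2))) : Prop :=
  ∃ F0 ∈ W a0, ∃ F1 ∈ W a1,
    (∃ A B : Polynomial k, 1 = A * P200M.prg k 0 F0 + B * P200M.prg k 0 F1) ∧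
    (F0 (Finsupp.single 1 a0) ≠ 0 ∨ F1 (Finsupp.single 1 a1) ≠ 0)

/-- pure powers up to terms involving the variables from `c` on -/
def Pow (c A : ℕ) (W : ℕ → Submodule k (VV k n)) : Prop :=
  ∀ i : Fin n, (i : ℕ) < c → ∃ w ∈ W A, w (Finsupp.single i A) ≠ 0 ∧
    ∀ β ∈ w.support, β = Finsupp.single i A ∨ ∃ l : Fin n, c ≤ (l : ℕ) ∧ β l ≠ 0

lemma HW.fin {W : ℕ → Submodule k (VV k n)} (h : HW W) (d : ℕ) : FiniteDimensional k (W d) :=
  Submodule.finiteDimensional_of_le (h d)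

end Vale.Agent.P200G
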