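import Vale.Agent.P200G.GDef

namespace Vale.Agent.P200G

open Module P200 P200L P200D

variable {n : ℕ} {k : Type*} [DivisionRing k]

lemma InZ_vge {κ : ℕ} {v : VV k (n + 1)} :
    v ∈ Vge k n κ ↔ ∀ β, v β ≠ 0 → κ ≤ β (Fin.last n) :=
  ⟨fun h _ hβ => h (Finsupp.mem_support_iff.mpr hβ),
    fun h β hβ => h β (Finsupp.mem_support_iff.mp hβ)⟩

lemma InZ_zz (κ κ' : ℕ) (v : VV k (n + 1)) :
    zf k n κ' (zf k n κ v) = if κ' = κ then zf k n κ v else 0 := by
  ext β
  split_ifs with h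
  · subst h
    simp only [zf_apply]
    split_ifs <;> rfl
  · simp only [zf_apply, Finsupp.zero_apply]
    split_ifs with h1 h2
    · exact absurd (h1.symm.trans h2) h
    · rfl
    · rfl

lemma InZ_ne {κ : ℕ} {v : VV k (n + 1)} {β : Fin (n + 1) →₀ ℕ} (h : zf k n κ v β ≠ 0) :
    β (Fin.last n) = κ ∧ v β ≠ 0 := by
  rw [zf_apply] at h
  split_ifs at h with h1
  · exact ⟨h1, h⟩
  · exact absurd rfl h

lemma InZ_pd {κ d : ℕ} {v : VV k (n + 1)} (h : v ∈ Pd k (n + 1) d) :
    zf k n κ v ∈ Pd k (n + 1) d := fun _ hβ =>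
  h (Finsupp.mem_support_iff.mpr (InZ_ne (Finsupp.mem_support_iff.mp hβ)).2)

lemma InZ_sh (κ : ℕ) (i : Fin (n + 1)) (v : VV k (n + 1)) :
    zf k n (κ + Finsupp.single i 1 (Fin.last n)) (sh k (n + 1) i v) =
      sh k (n + 1) i (zf k n κ v) := by
  ext β
  rw [zf_apply]
  simp only [Finsupp.lmapDomain_apply]
  by_cases hβ : β ∈ Set.range fun γ : Fin (n + 1) →₀ ℕ => γ + Finsupp.single i 1
  · obtain ⟨γ, rfl⟩ := hβ
    rw [Finsupp.mapDomain_apply (add_left_injective _),
      Finsupp.mapDomain_apply (add_left_injective _), zf_apply]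
    simp only [Finsupp.add_apply, add_left_inj]
  · rw [Finsupp.mapDomain_notin_range _ _ hβ, Finsupp.mapDomain_notin_range _ _ hβ, ite_self]

lemma InZ_shv {κ : ℕ} (i : Fin (n + 1)) {v : VV k (n + 1)} (h : v ∈ Vge k n κ) :
    sh k (n + 1) i v ∈ Vge k n (κ + Finsupp.single i 1 (Fin.last n)) := by
  classical
  intro γ hγ
  obtain ⟨δ, hδ, rfl⟩ := Finset.mem_image.mp (Finsupp.mapDomain_support hγ)
  exact Nat.add_le_add_right (h hδ) _

lemma InZ_step (U : Submodule k (VV k (n + 1))) [FiniteDimensional k U] (κ : ℕ) :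
    finrank k (U ⊓ Vge k n (κ + 1) : Submodule k _) +
      finrank k ((U ⊓ Vge k n κ).map (zf k n κ)) = finrank k (U ⊓ Vge k n κ : Submodule k _) := by
  have : FiniteDimensional k (U ⊓ Vge k n κ : Submodule k _) :=
    Submodule.finiteDimensional_of_le inf_le_left
  have e : U ⊓ Vge k n κ ⊓ LinearMap.ker (zf k n κ) = U ⊓ Vge k n (κ + 1) := by
    ext v
    simp only [Submodule.mem_inf, InZ_vge, LinearMap.mem_ker]
    constructor
    · rintro ⟨⟨h1, h2⟩, h3⟩
      refine ⟨h1, fun β hβ => lt_of_le_of_ne (h2 β hβ) fun e => hβ ?_⟩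
      have := congrArg (fun u => u β) h3
      simpa [zf_apply, e] using this
    · rintro ⟨h1, h2⟩
      refine ⟨⟨h1, fun β hβ => (h2 β hβ).trans' (Nat.le_succ _)⟩, ?_⟩
      ext β
      by_contra hne
      have h3 := InZ_ne hne
      have := h2 β h3.2
      omega
  rw [← e]
  exact rank_null _ _

lemma InZ_bot {U : Submodule k (VV k (n + 1))} {d κ : ℕ} (h : U ≤ Pd k (n + 1) d) (hκ : d < κ) :
    U ⊓ Vge k n κ = ⊥ := by
  rw [eq_bot_iff]
  intro v hv
  rw [Submodule.mem_bot]
  ext β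
  by_contra hne
  have h1 := InZ_vge.mp hv.2 β hne
  have h2 := mem_expo.mp (h hv.1 (Finsupp.mem_support_iff.mpr hne))
  have h3 := Finsupp.le_degree (Fin.last n) β
  omega

/-- component of a chain of last degree `ω` -/
noncomputable def InZ_pz (k : Type*) [DivisionRing k] (n ω : ℕ) :
    (Finset (Fin (n + 1)) → VV k (n + 1)) →ₗ[k] (Finset (Fin (n + 1)) → VV k (n + 1)) where
  toFun u F := (u F).filter fun β => (β + ind F) (Fin.last n) = ω
  map_add' _ _ := funext fun _ => Finsupp.filter_add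
  map_smul' _ _ := funext fun _ => Finsupp.filter_smul

lemma InZ_pz_apply (ω : ℕ) (u : Finset (Fin (n + 1)) → VV k (n + 1)) (F : Finset (Fin (n + 1)))
    (β : Fin (n + 1) →₀ ℕ) :
    InZ_pz k n ω u F β = if (β + ind F) (Fin.last n) = ω then u F β else 0 := rfl

lemma InZ_kos (ω : ℕ) (u : Finset (Fin (n + 1)) → VV k (n + 1)) :
    InZ_pz k n ω (kos (sh k (n + 1)) u) = kos (sh k (n + 1)) (InZ_pz k n ω u) := by
  funext F
  ext β
  rw [InZ_pz_apply, kos_apply, kos_apply, Finsupp.finsetSum_apply, Finsupp.finsetSum_apply]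
  have key : ∀ i ∈ Fᶜ, sh k (n + 1) i (InZ_pz k n ω u (insert i F)) β =
      if (β + ind F) (Fin.last n) = ω then sh k (n + 1) i (u (insert i F)) β else 0 := by
    intro i hi
    by_cases hβ : β ∈ Set.range fun γ : Fin (n + 1) →₀ ℕ => γ + Finsupp.single i 1
    · obtain ⟨γ, rfl⟩ := hβ
      simp only [Finsupp.lmapDomain_apply]
      rw [Finsupp.mapDomain_apply (add_left_injective _),
        Finsupp.mapDomain_apply (add_left_injective _), InZ_pz_apply, ind,
        Finset.sum_insert (Finset.mem_compl.mp hi), ← add_assoc]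
      rfl
    · simp only [Finsupp.lmapDomain_apply]
      rw [Finsupp.mapDomain_notin_range _ _ hβ, Finsupp.mapDomain_notin_range _ _ hβ, ite_self]
  split_ifs with h
  · exact Finset.sum_congr rfl fun i hi => by
      rw [Finsupp.smul_apply, Finsupp.smul_apply, key i hi, if_pos h]
  · exact (Finset.sum_eq_zero fun i hi => by
      rw [Finsupp.smul_apply, key i hi, if_neg h, smul_zero]).symm

lemma InZ_tW (W W' : ℕ → Submodule k (VV k (n + 1)))
    (hW' : ∀ d κ, ∀ w ∈ W d, w ∈ Vge k n κ → zf k n κ w ∈ W' d) (p j : ℕ) :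
    tW W p j ≤ tW W' p j := by
  classical
  have hB := kos_ch (sh k (n + 1)) (Pd k (n + 1)) sh_Pd p j
  have := ch_fin (n := n + 1) (Pd k (n + 1)) p j
  have hfin : ∀ W : ℕ → Submodule k (VV k (n + 1)), FiniteDimensional k
      ((ch (n + 1) (Pd k (n + 1)) (p + 1) j).map (kos (sh k (n + 1))) ⊓ ch (n + 1) W p j :
        Submodule k _) := fun W => Submodule.finiteDimensional_of_le (inf_le_left.trans hB)
  have := hfin W
  have := hfin W'
  refine lead id (InZ_pz k n) (fun ω v => ?_) (fun ω ω' v h => ?_) (fun v h => ?_)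
    ((Finset.univ ×ˢ expo (n + 1) (j - p)).image fun q => (q.2 + ind q.1) (Fin.last n)) _ _ ?_ ?_
  · funext F
    ext β
    simp only [InZ_pz_apply]
    split_ifs <;> rfl
  · funext F
    ext β
    simp only [InZ_pz_apply]
    split_ifs with h1 h2
    · exact absurd (h1.symm.trans h2) h
    · rfl
    · rfl
  · funext F
    ext β
    have := congrArg (fun u => u F β) (h ((β + ind F) (Fin.last n)))
    simpa [InZ_pz_apply] using this
  · intro w hw ω hω
    have h := mem_ch'.mp (hB hw.1)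
    funext F
    ext β
    rw [InZ_pz_apply]
    split_ifs with h1
    · by_contra hne
      by_cases hF : F.card = p ∧ p ≤ j
      · exact hω (Finset.mem_image.mpr ⟨(F, β), Finset.mem_product.mpr ⟨Finset.mem_univ _,
          h.1 F hF.1 hF.2 (Finsupp.mem_support_iff.mpr hne)⟩, h1⟩)
      · exact hne (by simp [h.2 F hF])
    · rfl
  · rintro w ⟨⟨u, hu, rfl⟩, hw⟩ ω hω
    refine ⟨⟨InZ_pz k n ω u, ?_, (InZ_kos ω u).symm⟩, ?_⟩
    · rw [SetLike.mem_coe, mem_ch'] at hu ⊢
      refine ⟨fun F h1 h2 β hβ => hu.1 F h1 h2 ?_, fun F h => ?_⟩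
      · rw [Finset.mem_coe, Finsupp.mem_support_iff, InZ_pz_apply] at hβ
        rw [Finset.mem_coe, Finsupp.mem_support_iff]
        intro h
        simp [h] at hβ
      · ext β
        simp [InZ_pz_apply, hu.2 F h]
    · generalize kos (sh k (n + 1)) u = w at hw hω
      rw [SetLike.mem_coe, mem_ch'] at hw ⊢
      refine ⟨fun F h1 h2 => ?_, fun F h => ?_⟩
      · by_cases h0 : ind F (Fin.last n) ≤ ω
        · obtain ⟨κ, rfl⟩ := Nat.exists_eq_add_of_le' h0
          have e : InZ_pz k n (κ + ind F (Fin.last n)) w F = zf k n κ (w F) := by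
            ext β
            simp only [InZ_pz_apply, zf_apply, Finsupp.add_apply, add_left_inj]
          rw [e]
          refine hW' _ _ _ (hw.1 F h1 h2) (InZ_vge.mpr fun β hβ => ?_)
          have h3 := hω ((β + ind F) (Fin.last n)) fun h => hβ (by
            have := congrArg (fun u => u F β) h
            simpa [InZ_pz_apply] using this)
          simpa using h3
        · have e : InZ_pz k n ω w F = 0 := by
            ext β
            rw [InZ_pz_apply, if_neg (by rw [Finsupp.add_apply]; omega), Finsupp.zero_apply]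
          rw [e]
          exact zero_mem _
      · ext β
        simp [InZ_pz_apply, hw.2 F h]

theorem inZ (W : ℕ → Submodule k (VV k (n + 1))) (h : HW W) (hu : UpW W) :
    ∃ W' : ℕ → Submodule k (VV k (n + 1)), HW W' ∧ UpW W' ∧ ZG W' ∧
      (∀ p j, tW W p j ≤ tW W' p j) ∧
      (∀ d κ, ∀ w ∈ W d, w ∈ Vge k n κ → zf k n κ w ∈ W' d) ∧
      ∀ d κ, finrank k (W' d ⊓ Vge k n κ : Submodule k _) =
        finrank k (W d ⊓ Vge k n κ : Submodule k _) := by
  let W' : ℕ → Submodule k (VV k (n + 1)) := fun d => Pd k (n + 1) d ⊓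
    ⨅ κ, ((W d ⊓ Vge k n κ).map (zf k n κ)).comap (zf k n κ)
  have hm : ∀ d v, v ∈ W' d ↔ v ∈ Pd k (n + 1) d ∧
      ∀ κ, zf k n κ v ∈ (W d ⊓ Vge k n κ).map (zf k n κ) := fun d v => by
    simp only [W', Submodule.mem_inf, Submodule.mem_iInf, Submodule.mem_comap]
  have h5 : ∀ d κ, ∀ w ∈ W d, w ∈ Vge k n κ → zf k n κ w ∈ W' d := by
    intro d κ w h1 h2
    refine (hm _ _).mpr ⟨InZ_pd (h d h1), fun κ' => ?_⟩
    rw [InZ_zz]
    split_ifs with e
    · subst e
      exact ⟨w, ⟨h1, h2⟩, rfl⟩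
    · exact zero_mem _
  have h1 : HW W' := fun d => inf_le_left
  refine ⟨W', h1, fun d i v hv => ?_, fun d κ v hv => ?_, InZ_tW W W' h5, h5, fun d κ => ?_⟩
  · refine (hm _ _).mpr ⟨sh_Pd i d v (h1 d hv), fun κ => ?_⟩
    by_cases h0 : (Finsupp.single i 1 : Fin (n + 1) →₀ ℕ) (Fin.last n) ≤ κ
    · obtain ⟨κ, rfl⟩ := Nat.exists_eq_add_of_le' h0
      obtain ⟨w, hw, e⟩ := ((hm _ _).mp hv).2 κ
      exact ⟨sh k (n + 1) i w, ⟨hu d i w hw.1, InZ_shv i hw.2⟩, by rw [InZ_sh, InZ_sh, e]⟩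
    · have e : zf k n κ (sh k (n + 1) i v) = 0 := by
        ext β
        by_contra hne
        have h3 := InZ_ne hne
        have := InZ_vge.mp (InZ_shv (κ := 0) i (InZ_vge.mpr fun _ _ => Nat.zero_le _)) β h3.2
        omega
      rw [e]
      exact zero_mem _
  · obtain ⟨w, hw, e⟩ := ((hm _ _).mp hv).2 κ
    rw [← e]
    exact h5 d κ w hw.1 hw.2
  · have := h.fin d
    have := h1.fin d
    have key : ∀ t κ, d < κ + t → finrank k (W' d ⊓ Vge k n κ : Submodule k _) =
        finrank k (W d ⊓ Vge k n κ : Submodule k _) := by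
      intro t
      induction t with
      | zero => intro κ hκ; rw [InZ_bot (κ := κ) (h d) hκ, InZ_bot (κ := κ) (h1 d) hκ]
      | succ t ih =>
        intro κ hκ
        have e : (W' d ⊓ Vge k n κ).map (zf k n κ) = (W d ⊓ Vge k n κ).map (zf k n κ) := by
          apply le_antisymm
          · rintro _ ⟨v, hv, rfl⟩
            exact ((hm _ _).mp hv.1).2 κ
          · rintro _ ⟨w, hw, rfl⟩
            exact ⟨zf k n κ w, ⟨h5 d κ w hw.1 hw.2, InZ_vge.mpr fun β hβ => (InZ_ne hβ).1.ge⟩,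
              by rw [InZ_zz, if_pos rfl]⟩
        rw [← InZ_step (W' d) κ, ← InZ_step (W d) κ, e, ih (κ + 1) (by omega)]
    exact key (d + 1) κ (by omega)

end Vale.Agent.P200G
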