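import Vale.Agent.P200G.GDef

namespace Vale.Agent.P200G

open Module P200 P200L P200D

variable {n : ℕ} {k : Type*} [DivisionRing k]

lemma LayG_mem {W : ℕ → Submodule k (VV k (n + 1))} (hz : ZG W) {d : ℕ} {w : VV k (n + 1)}
    (hw : w ∈ Pd k (n + 1) d) (h : ∀ i ≤ d, layCo k n i w ∈ layW W i (d - i)) : w ∈ W d := by
  have e : w = ∑ i ∈ Finset.range (d + 1), zf k n i w := by
    ext β
    rw [Finsupp.finsetSum_apply]
    simp only [zf_apply, Finset.sum_ite_eq, Finset.mem_range]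
    split_ifs with h1
    · rfl
    · by_contra h2
      have h3 := mem_expo.1 (Finset.mem_coe.1 (hw (Finsupp.mem_support_iff.2 h2)))
      rw [← snc_ini β, degree_snc] at h3
      omega
  rw [e]
  refine sum_mem fun i hi => ?_
  have hi' : i ≤ d := Nat.lt_succ_iff.1 (Finset.mem_range.1 hi)
  obtain ⟨w', h1, h2⟩ := h i hi'
  rw [Nat.sub_add_cancel hi'] at h1
  have e2 : zf k n i w = zf k n i w' := by
    ext β
    rw [zf_apply, zf_apply]
    split_ifs with h3
    · rw [← snc_ini β, h3, ← layCo_apply, ← layCo_apply, h2]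
    · rfl
  rw [e2]
  exact hz d i w' h1

lemma LayG_hw {W : ℕ → Submodule k (VV k (n + 1))} (h : HW W) (i : ℕ) : HW (layW W i) := by
  rintro d _ ⟨w, hw, rfl⟩ β hβ
  have h0 : layCo k n i w β ≠ 0 := Finsupp.mem_support_iff.1 (Finset.mem_coe.1 hβ)
  have h1 := mem_expo.1 (Finset.mem_coe.1 (h _ hw (Finsupp.mem_support_iff.2
    (show w (snc β i) ≠ 0 from h0))))
  rw [degree_snc] at h1
  exact Finset.mem_coe.2 (mem_expo.2 (by omega))

lemma LayG_univ {m : ℕ} {W : ℕ → Submodule k (VV k m)} (h : HW W) (p j : ℕ) :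
    ch m W p j ≤ ch m (WE k Set.univ) p j := by
  rw [← lay_Pd]
  exact ch_mono h p j

/-- the spaces of components -/
noncomputable def LayGH (W : ℕ → Submodule k (VV k (n + 1))) (p j : ℕ) :
    ℕ → Submodule k (Finset (Fin n) → VV k n)
  | 0 => (ch n (Pd k n) (p + 1) j).map (kos (sh k n)) ⊓ ch n (layW W 0) p j
  | i + 1 => YG (layW W (i + 1)) (layW W i) p (j - (i + 1))

lemma LayG_A {W : ℕ → Submodule k (VV k (n + 1))} (h : HW W) {p j : ℕ}
    {u : Finset (Fin (n + 1)) → VV k (n + 1)} (hu : u ∈ ch (n + 1) W p j) {i : ℕ} (hi : i ≤ j) :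
    layA k n i u ∈ ch n (layW W i) p (j - i) := by
  refine mem_ch'.2 ⟨fun F h1 h2 => ⟨u (layUp F), ?_, rfl⟩, fun F hF => ?_⟩
  · have := (mem_ch'.1 hu).1 (layUp F) (by rw [Finset.card_map, h1]) (by omega)
    rwa [show j - p = j - i - p + i by omega] at this
  · ext β
    by_contra hβ
    obtain ⟨-, a2, a3⟩ := lay_ch.1 (LayG_univ h p j hu) (layUp F) (snc β i) hβ
    rw [Finset.card_map] at a2
    rw [degree_snc] at a3
    exact hF ⟨a2, by omega⟩

lemma LayG_B {W : ℕ → Submodule k (VV k (n + 1))} (h : HW W) {p j : ℕ}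
    {u : Finset (Fin (n + 1)) → VV k (n + 1)} (hu : u ∈ ch (n + 1) W p j) {i : ℕ} (hi : i < j) :
    layB k n i u ∈ ch n (layW W i) (p - 1) (j - (i + 1)) := by
  refine mem_ch'.2 ⟨fun F h1 h2 => ⟨u (insert (Fin.last n) (layUp F)), ?_, rfl⟩, fun F hF => ?_⟩
  · have hc : (insert (Fin.last n) (layUp F)).card = F.card + 1 := by
      rw [Finset.card_insert_of_notMem (layUp_last F), Finset.card_map]
    rcases Nat.eq_zero_or_pos p with h0 | h0
    · rw [(mem_ch'.1 hu).2 _ (by omega)]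
      exact zero_mem _
    · have := (mem_ch'.1 hu).1 (insert (Fin.last n) (layUp F)) (by omega) (by omega)
      rwa [show j - p = j - (i + 1) - (p - 1) + i by omega] at this
  · ext β
    by_contra hβ
    obtain ⟨-, a2, a3⟩ :=
      lay_ch.1 (LayG_univ h p j hu) (insert (Fin.last n) (layUp F)) (snc β i) hβ
    rw [Finset.card_insert_of_notMem (layUp_last F), Finset.card_map] at a2
    rw [degree_snc] at a3
    exact hF ⟨by omega, by omega⟩

lemma LayG_in {W : ℕ → Submodule k (VV k (n + 1))} (h : HW W) {p j : ℕ}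
    {u : Finset (Fin (n + 1)) → VV k (n + 1)}
    (hu : u ∈ (ch (n + 1) (Pd k (n + 1)) (p + 1) j).map (kos (sh k (n + 1))) ⊓ ch (n + 1) W p j)
    {i : ℕ} (hi : i ≤ j) : layA k n i u ∈ LayGH W p j i := by
  cases i with
  | zero =>
    exact ⟨(lay_mem (E := Set.univ) ⟨hu.1, LayG_univ h p j hu.2⟩ 0).1, LayG_A h hu.2 hi⟩
  | succ i =>
    refine ⟨LayG_A h hu.2 hi, mem_ch.2 fun F => ?_⟩
    obtain ⟨⟨v, -, rfl⟩, h2⟩ := hu
    have h3 := layA_succ (kos (sh k (n + 1)) v) i F
    rw [lay_sh, map_zero, Pi.zero_apply] at h3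
    rw [eq_neg_of_add_eq_zero_left h3.symm]
    exact neg_mem (zsmul_mem (mem_ch.1 (LayG_B h h2 hi) F) _)

lemma LayG_surj {W : ℕ → Submodule k (VV k (n + 1))} (h : HW W) (hz : ZG W) {p j : ℕ}
    (y : ℕ → Finset (Fin n) → VV k n) (hy : ∀ i ≤ j, y i ∈ LayGH W p j i) :
    ∃ u ∈ (ch (n + 1) (Pd k (n + 1)) (p + 1) j).map (kos (sh k (n + 1))) ⊓ ch (n + 1) W p j,
      ∀ i ≤ j, layA k n i u = y i := by
  have h1 : ∀ i ≤ j, y i ∈ ch n (layW W i) p (j - i) := fun i hi => by
    cases i with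
    | zero => exact (hy 0 hi).2
    | succ i => exact (hy (i + 1) hi).1
  obtain ⟨u, ⟨hu1, hu2⟩, hA⟩ := lay_surj (E := Set.univ) (p := p) (j := j) y fun i hi => by
    cases i with
    | zero => exact ⟨(hy 0 hi).1, LayG_univ (LayG_hw h 0) p j (h1 0 hi)⟩
    | succ i =>
      exact ⟨LayG_univ (LayG_hw h (i + 1)) p _ (h1 _ hi), fun F _ β _ => trivial⟩
  refine ⟨u, ⟨hu1, ?_⟩, hA⟩
  rw [SetLike.mem_coe, ← lay_Pd] at hu2
  refine mem_ch'.2 ⟨fun G h2 h3 => LayG_mem hz ((mem_ch'.1 hu2).1 G h2 h3) fun i hi => ?_,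
    (mem_ch'.1 hu2).2⟩
  rcases lay_cases G with ⟨F, rfl⟩ | ⟨F, rfl⟩
  · rw [Finset.card_map] at h2
    have := (mem_ch'.1 (h1 i (by omega))).1 F h2 (by omega)
    rw [← hA i (by omega), show j - i - p = j - p - i by omega] at this
    exact this
  · rw [Finset.card_insert_of_notMem (layUp_last F), Finset.card_map] at h2
    obtain ⟨v, -, hv⟩ := hu1
    have h4 := layA_succ u i F
    rw [hA (i + 1) (by omega), ← hv, lay_sh, map_zero, hv, Pi.zero_apply] at h4
    have h5 := (mem_ch'.1 (hy (i + 1) (by omega)).2).1 F (by omega) (by omega)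
    rw [show j - (i + 1) - (p - 1) = j - p - i by omega] at h5
    change layB k n i u F ∈ _
    rw [← lay_sq F.card (layB k n i u F), eq_neg_of_add_eq_zero_right h4.symm]
    exact zsmul_mem (neg_mem h5) _

theorem tW_succ (W : ℕ → Submodule k (VV k (n + 1))) (h : HW W) (hz : ZG W) (p j : ℕ) :
    tW W p j = tW (layW W 0) p j + ∑ i ∈ Finset.range j,
      finrank k (YG (layW W (i + 1)) (layW W i) p (j - (i + 1))) := by
  have f0 := h.fin
  have f0' := fun i => (LayG_hw h i).fin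
  have f1 := ch_fin (n := n + 1) W p j
  have f2 : FiniteDimensional k ((ch (n + 1) (Pd k (n + 1)) (p + 1) j).map (kos (sh k (n + 1))) ⊓
      ch (n + 1) W p j : Submodule k _) := Submodule.finiteDimensional_of_le inf_le_right
  have f3 : ∀ i, FiniteDimensional k (LayGH W p j i) := fun i => by
    cases i with
    | zero =>
      have := ch_fin (n := n) (layW W 0) p j
      exact Submodule.finiteDimensional_of_le inf_le_right
    | succ i =>
      have := ch_fin (n := n) (layW W (i + 1)) p (j - (i + 1))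
      exact Submodule.finiteDimensional_of_le inf_le_left
  have h1 := finrank_map_inj (LinearMap.pi fun i : Fin (j + 1) => layA k n i)
    ((ch (n + 1) (Pd k (n + 1)) (p + 1) j).map (kos (sh k (n + 1))) ⊓ ch (n + 1) W p j)
    fun u hu h' => lay_zero (E := Set.univ) ⟨hu.1, LayG_univ h p j hu.2⟩
      fun i hi => congrFun h' ⟨i, by omega⟩
  have h2 : ((ch (n + 1) (Pd k (n + 1)) (p + 1) j).map (kos (sh k (n + 1))) ⊓
      ch (n + 1) W p j).map (LinearMap.pi fun i : Fin (j + 1) => layA k n i) =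
      Submodule.pi Set.univ fun i : Fin (j + 1) => LayGH W p j i := by
    apply le_antisymm
    · rintro _ ⟨u, hu, rfl⟩ i _
      exact LayG_in h hu (Nat.lt_succ_iff.1 i.2)
    · intro y hy
      obtain ⟨u, hu, h⟩ := LayG_surj h hz (p := p) (j := j)
        (fun i => if h : i < j + 1 then y ⟨i, h⟩ else 0) fun i hi => by
          rw [dif_pos (by omega)]
          exact hy ⟨i, by omega⟩ trivial
      refine ⟨u, hu, funext fun i => ?_⟩
      have := h i (by omega)
      rw [dif_pos i.2] at this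
      exact this
  rw [h2, lay_pi, Fin.sum_univ_eq_sum_range (fun i => finrank k (LayGH W p j i)),
    Finset.sum_range_succ', add_comm] at h1
  exact h1.symm

end Vale.Agent.P200G
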