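import Vale.Agent.P200G.GDef

namespace Vale.Agent.P200G

open Module P200 P200L P200D

variable {n : ℕ} {k : Type*} [DivisionRing k]

lemma powg_single (l : Fin n) (a : ℕ) :
    snc (Finsupp.single l a) 0 = Finsupp.single l.castSucc a := by
  ext j
  induction j using Fin.lastCases with
  | last => simp [(Fin.castSucc_lt_last l).ne]
  | cast j => simp [Finsupp.single_apply]

lemma powg_tl {m : ℕ} (δ : Fin (m + 2) →₀ ℕ) (i : ℕ) :
    P200M.tl (m := m + 1) (snc δ i) = 0 ↔ i = 0 ∧ P200M.tl δ = 0 := by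
  have h0 : ∀ j : Fin (m + 2), (j.castSucc = 0 ∨ j.castSucc = 1) ↔ (j = 0 ∨ j = 1) := by
    intro j
    simp only [Fin.ext_iff, Fin.val_castSucc, Fin.val_zero, Fin.val_one]
  have h1 : ¬ (Fin.last (m + 2) = 0 ∨ Fin.last (m + 2) = 1) := by
    simp only [Fin.ext_iff, Fin.val_last, Fin.val_zero, Fin.val_one]
    omega
  have h2 : ∀ j : Fin (m + 2),
      P200M.tl (m := m + 1) (snc δ i) j.castSucc = P200M.tl δ j := by
    intro j
    rw [P200M.tl_apply, P200M.tl_apply, snc_cast]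
    simp only [h0]
  have h3 : P200M.tl (m := m + 1) (snc δ i) (Fin.last (m + 2)) = i := by
    rw [P200M.tl_apply, if_neg h1, snc_last]
  constructor
  · intro h
    refine ⟨by rw [← h3, h]; rfl, ?_⟩
    ext j
    rw [← h2, h]; rfl
  · rintro ⟨hi, h⟩
    ext j
    induction j using Fin.lastCases with
    | last => rw [h3, hi]; rfl
    | cast j => rw [h2, h]; rfl

lemma powg_prg {m : ℕ} (F : VV k (m + 1 + 2)) :
    P200M.prg k (0 : Fin (m + 2) →₀ ℕ) (layCo k (m + 2) 0 F)
      = P200M.prg k (0 : Fin (m + 1 + 2) →₀ ℕ) F := by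
  refine lay_ind (n := m + 2) (P := fun F => P200M.prg k (0 : Fin (m + 2) →₀ ℕ)
    (layCo k (m + 2) 0 F) = P200M.prg k (0 : Fin (m + 1 + 2) →₀ ℕ) F) (by simp)
    (fun a b ha hb => by rw [map_add, map_add, ha, hb, map_add]) (fun δ i c => ?_) F
  have h1 : snc δ i 1 = δ 1 := snc_cast δ i 1
  rw [layCo_single]
  unfold P200M.prg
  rw [Finsupp.linearCombination_single]
  simp only [powg_tl]
  by_cases hi : i = 0
  · rw [if_pos hi, Finsupp.linearCombination_single, h1]
    simp only [hi, true_and]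
  · rw [if_neg hi, if_neg fun h => hi h.1]
    simp

theorem Two.lay {m a0 a1 : ℕ} {W : ℕ → Submodule k (VV k (m + 1 + 2))} (h : Two a0 a1 W) :
    Two a0 a1 (m := m) (layW W 0) := by
  obtain ⟨F0, h0, F1, h1, ⟨A, B, hAB⟩, h2⟩ := h
  refine ⟨layCo k (m + 2) 0 F0, ⟨F0, h0, rfl⟩, layCo k (m + 2) 0 F1, ⟨F1, h1, rfl⟩,
    ⟨A, B, by rw [powg_prg, powg_prg]; exact hAB⟩, ?_⟩
  rw [layCo_apply, layCo_apply, powg_single, powg_single]
  exact h2

theorem Pow.lay {c A : ℕ} {W : ℕ → Submodule k (VV k (n + 1))} (h : Pow c A W) :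
    Pow c A (layW W 0) := by
  intro i hi
  obtain ⟨w, hw, h1, h2⟩ := h i.castSucc hi
  refine ⟨layCo k n 0 w, ⟨w, hw, rfl⟩, by rwa [layCo_apply, powg_single], fun β hβ => ?_⟩
  have hβ' : w (snc β 0) ≠ 0 := by
    rw [← layCo_apply]; exact Finsupp.mem_support_iff.1 hβ
  rcases h2 (snc β 0) (Finsupp.mem_support_iff.2 hβ') with h3 | ⟨l, h3, h4⟩
  · rw [← powg_single] at h3
    exact Or.inl (lay_inj.1 h3).1
  · induction l using Fin.lastCases with
    | last => exact absurd (snc_last β 0) h4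
    | cast l => exact Or.inr ⟨l, h3, by rwa [snc_cast] at h4⟩

theorem Pow.out {c A : ℕ} {W : ℕ → Submodule k (VV k n)} (h : Pow c A W) (hu : UpW W)
    (hc : n ≤ c) : OutW (fun _ => A) W := by
  rintro β ⟨i, hi⟩
  obtain ⟨w, hw, h1, h2⟩ := h i (i.2.trans_le hc)
  have h3 : Finsupp.single (Finsupp.single i A) (1 : k) = (w (Finsupp.single i A))⁻¹ • w := by
    ext δ
    rw [Finsupp.smul_apply, smul_eq_mul]
    by_cases hδ : δ = Finsupp.single i A
    · rw [hδ, Finsupp.single_eq_same, inv_mul_cancel₀ h1]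
    · rw [Finsupp.single_eq_of_ne hδ]
      by_cases hs : δ ∈ w.support
      · rcases h2 δ hs with h4 | ⟨l, h4, -⟩
        · exact absurd h4 hδ
        · exact absurd (l.2.trans_le (hc.trans h4)) (lt_irrefl _)
      · rw [Finsupp.notMem_support_iff.1 hs, mul_zero]
  have h4 : Finsupp.single (Finsupp.single i A) (1 : k) ∈ W A := by
    rw [h3]; exact (W A).smul_mem _ hw
  have h5 := P200M.shift_mem W hu (β - Finsupp.single i A) A _ h4
  have h6 : Finsupp.single i A + (β - Finsupp.single i A) = β :=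
    add_tsub_cancel_of_le (Finsupp.single_le_iff.2 hi)
  have h7 : A + (β - Finsupp.single i A).degree = β.degree := by
    conv_rhs => rw [← h6, map_add, Finsupp.degree_single]
  rwa [Finsupp.mapDomain_single, h6, h7] at h5

end Vale.Agent.P200G
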