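import Vale.Agent.P200G.StabG
import Vale.Agent.P200G.LayG
import Vale.Agent.P200G.YyG
import Vale.Agent.P200G.PowG
import Vale.Agent.P200G.Base2

namespace Vale.Agent.P200G

open Module P200 P200L P200D

variable {n : ℕ} {k : Type*} [DivisionRing k]

theorem MMk (K : Type*) [Field K] [Algebra K k] {a : Fin n → ℕ} (ha : Monotone a)
    (h0 : ∀ i, 0 < a i) {E L : Set (Fin n →₀ ℕ)} (hE : Up E) (hO : ∀ β, Out a β → β ∈ E)
    (hL : IsLex a L) (hc : ∀ d, cnt L d = cnt E d) : Up L ∧ ∀ p j, tE k E p j ≤ tE k L p j := by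
  obtain ⟨D, i1, i2, hD⟩ := exists_good K
  obtain ⟨h1, h2⟩ := MM D n a ha h0 (fun _ => hD _) E L hE hO hL hc
  refine ⟨h1, fun p j => ?_⟩
  rw [← tt_mon (K := K) k hE, ← tt_mon (K := K) k h1, tt_mon D hE, tt_mon D h1]
  exact h2 p j

theorem stepG (K : Type*) [Field K] [Algebra K k] {a a' : Fin (n + 1) → ℕ} (ha : Monotone a)
    (h0 : ∀ i, 0 < a i) (B : (ℕ → Submodule k (VV k n)) → Prop)
    (hB : ∀ W W', B W → (∀ d, W d ≤ W' d) → B W')
    (ih : ∀ W, HW W → UpW W → B W → Cmp (fun l => a l.castSucc) W)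
    (haa : a' (Fin.last n) = a (Fin.last n)) (hl : ∀ l : Fin n, a' l.castSucc ≤ a' (Fin.last n))
    (hg : GoodC k (a' (Fin.last n))) (W : ℕ → Submodule k (VV k (n + 1))) (h : HW W) (hu : UpW W)
    (ho : OutW a' W) (hb : B (layW W 0)) : Cmp a W := by
  obtain ⟨W1, w1, w2, w3, w4, w5, w6, w7, w8⟩ := stabG a' hl hg W h hu ho
  rw [haa] at w8
  have hle : ∀ i d, layW W 0 d ≤ layW W1 i d := fun i d => by
    induction i with
    | zero => exact w7 d
    | succ i ih => exact ih.trans (layW_le w2 i d)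
  choose V v1 v2 v3 v4 using fun i =>
    ih (layW W1 i) (layW_hw w1 i) (layW_up w2 i) (hB _ _ hb (hle i))
  have vtop : ∀ i, a (Fin.last n) ≤ i → V i = Set.univ := fun i hi =>
    Set.eq_univ_of_forall fun β => lex_nest (isLex_univ _) (v1 i) trivial (by
      rw [v2, layW_top w1 w4 (haa ▸ hi), finrank_Pd])
  have vst : ∀ i, i + 1 < a (Fin.last n) → ∀ β ∈ V (i + 1), ∀ l,
      β + Finsupp.single l 1 ∈ V i := by
    intro i hi β hβ l
    obtain ⟨L', l1, l2, l3, -⟩ := ih
      (fun d => if d ≤ β.degree then layW W1 (i + 1) d else layW W1 i d)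
      (fun d => by
        simp only
        split_ifs <;> exact layW_hw w1 _ _)
      (fun d m w hw => by
        simp only at hw ⊢
        by_cases c1 : d ≤ β.degree
        · rw [if_pos c1] at hw
          split_ifs
          · exact layW_up w2 _ _ _ _ hw
          · exact w8 i hi d m w hw
        · rw [if_neg c1] at hw
          rw [if_neg (by omega)]
          exact layW_up w2 _ _ _ _ hw)
      (hB _ _ hb fun d => by split_ifs <;> exact hle _ _)
    beta_reduce at l2
    have h1 : β ∈ L' := lex_nest (v1 _) l1 hβ (by rw [v2, l2, if_pos le_rfl])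
    refine lex_nest l1 (v1 _) (l3 β h1 l) ?_
    rw [v2, l2, degree_add_single, if_neg (by omega)]
  have e : ∀ i, lay {β | ini β ∈ V (β (Fin.last n))} i = V i := fun i => by
    ext β; simp [lay]
  have hO : ∀ β, Out a β → β ∈ {β : Fin (n + 1) →₀ ℕ | ini β ∈ V (β (Fin.last n))} := by
    rintro β ⟨i, hi⟩
    induction i using Fin.lastCases with
    | last =>
      show ini β ∈ V _
      rw [vtop _ hi]
      trivial
    | cast l => exact (v1 _).1 _ ⟨l, hi⟩
  have hU : Up {β : Fin (n + 1) →₀ ℕ | ini β ∈ V (β (Fin.last n))} := by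
    intro β hβ i
    rw [← snc_ini β]
    induction i using Fin.lastCases with
    | last =>
      rw [snc_add_last]
      show ini _ ∈ V _
      rw [ini_snc, snc_last]
      refine lex_nest (v1 _) (v1 _) hβ ?_
      rw [v2, v2]
      have := (layW_hw w1 (β (Fin.last n) + 1)).fin (ini β).degree
      exact Submodule.finrank_mono (layW_le w2 _ _)
    | cast l =>
      rw [snc_add_cast]
      show ini _ ∈ V _
      rw [ini_snc, snc_last]
      exact v3 _ _ hβ l
  obtain ⟨L, l1, l2⟩ := exists_lex a _ hO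
  obtain ⟨m1, m2⟩ := MMk (k := k) K ha h0 hU hO l1 l2
  refine ⟨L, l1, fun d => ?_, m1, fun p j => (w6 p j).trans (le_trans ?_ (m2 p j))⟩
  · rw [l2, cnt_succ, ← w5, finrank_layW w1 w3]
    exact Finset.sum_congr rfl fun i _ => by rw [e, v2]
  · rw [tW_succ W1 w1 w3, tE_succ, e]
    refine Nat.add_le_add (v4 0 p j) (Finset.sum_le_sum fun i _ => ?_)
    rw [e, e]
    by_cases hi : i + 1 < a (Fin.last n)
    · rw [YY_eq _ _ (vst i hi), ← finrank_chW (layW_hw w1 _) (v2 _)]
      exact YG_le (layW_hw w1 _) _ _ _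
    · rw [vtop (i + 1) (by omega), layW_top w1 w4 (i := i + 1) (by omega)]
      exact YG_univ (layW_hw w1 _) _ _ (fun q => v4 i q _) p

lemma Pow.mono {c A : ℕ} {W W' : ℕ → Submodule k (VV k n)} (h : Pow c A W)
    (hle : ∀ d, W d ≤ W' d) : Pow c A W' := fun i hi => by
  obtain ⟨w, hw, h1⟩ := h i hi
  exact ⟨w, hle _ hw, h1⟩

lemma Two.mono {m a0 a1 : ℕ} {W W' : ℕ → Submodule k (VV k (m + 2))} (h : Two a0 a1 W)
    (hle : ∀ d, W d ≤ W' d) : Two a0 a1 W' := by
  obtain ⟨F0, h0, F1, h1, h2⟩ := h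
  exact ⟨F0, hle _ h0, F1, hle _ h1, h2⟩

theorem MG (K : Type*) [Field K] [Algebra K k] {c a0 a1 A b : ℕ} (gA : 3 ≤ c → GoodC k A)
    (gb : GoodC k b) (m : ℕ) : ∀ a : Fin (m + 2) → ℕ, Monotone a → (∀ i, 0 < a i) → a 0 = a0 →
      a 1 = a1 → (∀ i : Fin (m + 2), 2 ≤ (i : ℕ) → a i = if (i : ℕ) < c then A else b) →
      ∀ W : ℕ → Submodule k (VV k (m + 2)), HW W → UpW W → (∀ d, b ≤ d → Pd k (m + 2) d ≤ W d) →
        Pow c A W → Two a0 a1 W → Cmp a W := by
  induction m with
  | zero =>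
    intro a ha h0 e0 e1 _ W h hu _ _ h2
    subst e0 e1
    exact base2 (h0 0) (ha (Fin.zero_le _)) h hu h2
  | succ m ih =>
    intro a ha h0 e0 e1 e2 W h hu hb hp h2
    have el := e2 (Fin.last (m + 2)) (by simp)
    refine stepG (n := m + 2) K (a' := fun _ => a (Fin.last (m + 2))) ha h0
      (fun W' => (∀ d, b ≤ d → Pd k (m + 2) d ≤ W' d) ∧ Pow c A W' ∧ Two a0 a1 W')
      (fun W W' hW hle => ⟨fun d hd => (hW.1 d hd).trans (hle d), hW.2.1.mono hle, hW.2.2.mono hle⟩)
      (fun W' h' hu' hW => ih _ (fun l l' hl => ha (Fin.castSucc_le_castSucc_iff.mpr hl))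
        (fun _ => h0 _) e0 e1 (fun i hi => e2 i.castSucc hi) W' h' hu' hW.1 hW.2.1 hW.2.2)
      rfl (fun _ => le_rfl) ?_ W h hu ?_ ⟨fun d hd => ?_, hp.lay, h2.lay⟩
    · simp only [el]
      split_ifs with hc
      · exact gA (by simp at hc; omega)
      · exact gb
    · simp only [el]
      split_ifs with hc
      · exact hp.out hu (by simp at hc; omega)
      · rintro β ⟨i, hi⟩
        exact hb _ (hi.trans (Finsupp.le_degree i β))
          (Finsupp.single_mem_supported _ _ (mem_expo.mpr rfl))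
    · rw [Pd, Finsupp.supported_eq_span_single, Submodule.span_le]
      rintro _ ⟨β, hβ, rfl⟩
      refine ⟨Finsupp.single (snc β 0) 1, hb _ hd (Finsupp.single_mem_supported _ _ ?_), ?_⟩
      · rw [Finset.mem_coe, mem_expo, degree_snc, mem_expo.mp hβ, add_zero]
      · rw [layCo_single, if_pos rfl]

end Vale.Agent.P200G
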