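import Vale.Agent.P200G.GDef

namespace Vale.Agent.P200G

open Module P200 P200L P200D

variable {n : ℕ} {k : Type*} [DivisionRing k]

theorem qopG (a : Fin (n + 1) → ℕ) (l : Fin n)
    (hl : a l.castSucc ≤ a (Fin.last n)) (hg : GoodC k (a (Fin.last n))) :
    ∃ Ψ M τ : VV k (n + 1) →ₗ[k] VV k (n + 1),
      (∀ v, M v = sh k (n + 1) (Fin.last n) v + sh k (n + 1) l.castSucc (τ v)) ∧
      (∀ v, (τ v).support ⊆ v.support) ∧
      (∀ (i : Fin n) v, τ (sh k (n + 1) i.castSucc v) = sh k (n + 1) i.castSucc (τ v)) ∧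
      (∀ v, Ψ (sh k (n + 1) (Fin.last n) v) = M (Ψ v)) ∧
      (∀ (i : Fin n) v, Ψ (sh k (n + 1) i.castSucc v) = sh k (n + 1) i.castSucc (Ψ v)) ∧
      (∀ d, ∀ v ∈ Pd k (n + 1) d, Ψ v ∈ Pd k (n + 1) d) ∧
      (∀ β γ, Ψ (Finsupp.single β 1) γ ≠ 0 → γ = β ∨ γ (Fin.last n) < β (Fin.last n)) ∧
      (∀ β, Ψ (Finsupp.single β 1) β = 1) ∧
      (∀ β γ, Out a β → Ψ (Finsupp.single β 1) γ ≠ 0 → Out a γ) ∧
      (∀ U : Submodule k (VV k (n + 1)), (∀ κ, ∀ w ∈ U, zf k n κ w ∈ U) → ∀ w ∈ U, τ w ∈ U) ∧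
      ∀ κ, κ + 1 < a (Fin.last n) → ∃ q : k, q ≠ 0 ∧ ∀ v : VV k n,
        layCo k n κ (Ψ (emb k n (κ + 1) v)) = q • sh k n l v := by
  classical
  obtain ⟨t, Q, q1, q2, q3, q4, q5, q6, q7⟩ := hg
  set τ : ((Fin (n + 1) →₀ ℕ) →₀ k) →ₗ[k] ((Fin (n + 1) →₀ ℕ) →₀ k) :=
    Finsupp.linearCombination k fun β => t (β (Fin.last n)) • Finsupp.single β (1 : k) with hτ
  set Ψ : ((Fin (n + 1) →₀ ℕ) →₀ k) →ₗ[k] ((Fin (n + 1) →₀ ℕ) →₀ k) :=
    Finsupp.linearCombination k fun β => ∑ p ∈ Finset.HasAntidiagonal.antidiagonal (β (Fin.last n)),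
      Q p.1 p.2 • Finsupp.single (Qe l β p.1 p.2) (1 : k) with hΨ
  have τ1 : ∀ β, τ (Finsupp.single β 1) = t (β (Fin.last n)) • Finsupp.single β (1 : k) :=
    fun β => by rw [hτ, Finsupp.linearCombination_single, one_smul]
  have Ψ1 : ∀ β, Ψ (Finsupp.single β 1) = ∑ p ∈ Finset.HasAntidiagonal.antidiagonal (β (Fin.last n)),
      Q p.1 p.2 • Finsupp.single (Qe l β p.1 p.2) (1 : k) :=
    fun β => by rw [hΨ, Finsupp.linearCombination_single, one_smul]
  have s1 : ∀ i β, sh k (n + 1) i (Finsupp.single β 1) =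
      Finsupp.single (β + Finsupp.single i 1) (1 : k) := fun i β => Finsupp.mapDomain_single
  have ext : ∀ f g : ((Fin (n + 1) →₀ ℕ) →₀ k) →ₗ[k] ((Fin (n + 1) →₀ ℕ) →₀ k),
      (∀ β, f (Finsupp.single β 1) = g (Finsupp.single β 1)) → ∀ v, f v = g v :=
    fun f g h v => LinearMap.congr_fun (Finsupp.lhom_ext' fun β => LinearMap.ext_ring (h β)) v
  have key : ∀ β γ, Ψ (Finsupp.single β 1) γ ≠ 0 →
      ∃ s r, s + r = β (Fin.last n) ∧ Q s r ≠ 0 ∧ γ = Qe l β s r := fun β γ h => by
    rw [Ψ1, Finsupp.finsetSum_apply] at h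
    obtain ⟨p, hp, h2⟩ := Finset.exists_ne_zero_of_sum_ne_zero h
    rw [Finsupp.smul_apply, smul_eq_mul] at h2
    exact ⟨p.1, p.2, Finset.HasAntidiagonal.mem_antidiagonal.1 hp, left_ne_zero_of_mul h2,
      (Finsupp.single_apply_ne_zero.1 (right_ne_zero_of_mul h2)).1⟩
  have val : ∀ (β : Fin (n + 1) →₀ ℕ) s r, s + r = β (Fin.last n) →
      Ψ (Finsupp.single β 1) (Qe l β s r) = Q s r := fun β s r h => by
    rw [Ψ1, Finsupp.finsetSum_apply, Finset.sum_eq_single (s, r)]
    · simp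
    · intro p hp hne
      rw [Finsupp.smul_apply, Finsupp.single_eq_of_ne, smul_zero]
      intro e
      have e1 := congrArg (fun x => x (Fin.last n)) e
      simp only [Qe_last] at e1
      have := Finset.HasAntidiagonal.mem_antidiagonal.1 hp
      exact hne (Prod.ext e1.symm (by omega))
    · intro h'
      exact absurd (Finset.HasAntidiagonal.mem_antidiagonal.2 h) h'
  have self : ∀ β : Fin (n + 1) →₀ ℕ, Qe l β (β (Fin.last n)) 0 = β := fun β =>
    Qe_ext (Qe_last _ _ _ _) fun i => by simp [Qe_cast]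
  have τv : ∀ v γ, τ v γ = v γ * t (γ (Fin.last n)) := fun v γ => by
    induction v using Finsupp.induction_linear with
    | zero => simp
    | add x y hx hy => rw [map_add, Finsupp.add_apply, Finsupp.add_apply, hx, hy, add_mul]
    | single β c =>
      rw [hτ, Finsupp.linearCombination_single]
      by_cases e : β = γ
      · simp [e]
      · simp [Finsupp.single_eq_of_ne (Ne.symm e)]
  refine ⟨Ψ, sh k (n + 1) (Fin.last n) + sh k (n + 1) l.castSucc ∘ₗ τ, τ, fun v => rfl, fun v => ?_,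
    fun i => ext (τ ∘ₗ sh k (n + 1) i.castSucc) (sh k (n + 1) i.castSucc ∘ₗ τ) fun β => ?_,
    ext (Ψ ∘ₗ sh k (n + 1) (Fin.last n)) ((_ + _) ∘ₗ Ψ) fun β => ?_,
    fun i => ext (Ψ ∘ₗ sh k (n + 1) i.castSucc) (sh k (n + 1) i.castSucc ∘ₗ Ψ) fun β => ?_,
    fun d v hv => ?_, fun β γ h => ?_, fun β => ?_, fun β γ h h' => ?_, fun U hU w hw => ?_,
    fun κ hκ => ⟨Q κ 1, q5 κ hκ, fun v => ?_⟩⟩
  · have := τv v
    intro γ hγ
    rw [Finsupp.mem_support_iff] at hγ ⊢
    rw [this] at hγ
    exact left_ne_zero_of_mul hγ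
  · rw [LinearMap.comp_apply, LinearMap.comp_apply, s1, τ1, τ1, map_smul, s1, Finsupp.add_apply,
      Qe_s2, add_zero]
  · rw [LinearMap.comp_apply, LinearMap.comp_apply, s1, Ψ1, Ψ1, Finsupp.add_apply,
      Finsupp.single_eq_same, Qc_sum q1 q2 q3 fun s r => Finsupp.single
        (Qe l (β + Finsupp.single (Fin.last n) 1) s r) (1 : k), map_sum]
    refine Finset.sum_congr rfl fun p _ => ?_
    rw [map_smul, LinearMap.add_apply, LinearMap.comp_apply, s1, τ1, map_smul, s1, Qe_last]
    congr 3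
    · exact Qe_ext (by simp [Qe_last]) fun i => by simp [Qe_cast, Qe_s1]
    · congr 1
      refine Qe_ext (by simp [Qe_last, Qe_s2]) fun i => ?_
      simp only [Qe_cast, Finsupp.add_apply, Qe_s1]
      simp only [Finsupp.single_apply, Fin.castSucc_inj]
      split_ifs <;> omega
  · rw [LinearMap.comp_apply, LinearMap.comp_apply, s1, Ψ1, Ψ1, Finsupp.add_apply, Qe_s2, add_zero,
      map_sum]
    refine Finset.sum_congr rfl fun p _ => ?_
    rw [map_smul, s1]
    congr 2
    refine Qe_ext (by simp [Qe_last, Qe_s2]) fun j => ?_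
    simp only [Qe_cast, Finsupp.add_apply]
    omega
  · rw [← Finsupp.sum_single v, Finsupp.sum, map_sum]
    refine Submodule.sum_mem _ fun β hβ => ?_
    rw [← mul_one (v β), ← smul_eq_mul, ← Finsupp.smul_single, map_smul]
    refine Submodule.smul_mem _ _ fun γ hγ => ?_
    obtain ⟨s, r, e1, -, rfl⟩ := key β γ (Finsupp.mem_support_iff.1 hγ)
    rw [Finset.mem_coe, mem_expo, Qe_deg l β e1]
    exact mem_expo.1 (hv hβ)
  · obtain ⟨s, r, e1, -, rfl⟩ := key β γ h
    rcases Nat.eq_zero_or_pos r with rfl | hr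
    · left
      rw [show s = β (Fin.last n) from e1, self]
    · right
      rw [Qe_last]
      omega
  · have := val β (β (Fin.last n)) 0 rfl
    rwa [self, q1] at this
  · obtain ⟨s, r, e1, e2, rfl⟩ := key β γ h'
    obtain ⟨i, hi⟩ := h
    induction i using Fin.lastCases with
    | cast i => exact ⟨i.castSucc, by rw [Qe_cast]; omega⟩
    | last =>
      by_cases c1 : a (Fin.last n) ≤ s
      · exact ⟨Fin.last n, by rwa [Qe_last]⟩
      by_cases c2 : a (Fin.last n) ≤ r
      · exact ⟨l.castSucc, by rw [Qe_cast, if_pos rfl]; omega⟩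
      exact absurd (Qc_zero q3 q4 (β (Fin.last n) - a (Fin.last n)) s r (by omega) (by omega)
        (by omega)) e2
  · have e : τ w = ∑ κ ∈ w.support.image (fun β => β (Fin.last n)), t κ • zf k n κ w := by
      ext γ
      rw [τv, Finsupp.finsetSum_apply]
      simp only [Finsupp.smul_apply, zf_apply, smul_eq_mul, mul_ite, mul_zero,
        Finset.sum_ite_eq]
      split_ifs with hγ
      · exact (q6 _ _).eq.symm
      · have : w γ = 0 := by
          by_contra h
          exact hγ (Finset.mem_image_of_mem _ (Finsupp.mem_support_iff.2 h))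
        rw [this, zero_mul]
    rw [e]
    exact U.sum_mem fun κ _ => U.smul_mem _ (hU κ w hw)
  · induction v using Finsupp.induction_linear with
    | zero => simp
    | add x y hx hy => simp only [map_add, hx, hy, smul_add]
    | single b c =>
      have e1 : emb k n (κ + 1) (Finsupp.single b c) =
          c • Finsupp.single (snc b (κ + 1)) (1 : k) := by
        rw [Finsupp.smul_single, smul_eq_mul, mul_one]
        exact Finsupp.mapDomain_single
      have e2 : sh k n l (Finsupp.single b c) =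
          c • Finsupp.single (b + Finsupp.single l 1) (1 : k) := by
        rw [Finsupp.smul_single, smul_eq_mul, mul_one]
        exact Finsupp.mapDomain_single
      have e3 : ∀ s r, Qe l (snc b (κ + 1)) s r = snc (b + Finsupp.single l r) s := fun s r =>
        Qe_ext (by simp [Qe_last]) fun i => by simp [Qe_cast, Finsupp.single_apply]
      rw [e1, e2, map_smul, map_smul, Ψ1, map_sum, snc_last, Finset.sum_eq_single (κ, 1),
        map_smul, e3, layCo_single, if_pos rfl, smul_smul, smul_smul, (q7 κ c).eq]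
      · intro p hp hne
        have := Finset.HasAntidiagonal.mem_antidiagonal.1 hp
        rw [map_smul, e3, layCo_single, if_neg, smul_zero]
        intro e
        exact hne (Prod.ext e (by omega))
      · intro h'
        exact (h' (by simp)).elim

end Vale.Agent.P200G
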