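import Vale.Agent.P200G.GDef

namespace Vale.Agent.P200G

open Module P200 P200L P200D

variable {n : ℕ} {k : Type*} [DivisionRing k]

theorem tt_twistG (l : Fin n) (Ψ M τ : VV k (n + 1) →ₗ[k] VV k (n + 1))
    (h1 : ∀ v, M v = sh k (n + 1) (Fin.last n) v + sh k (n + 1) l.castSucc (τ v))
    (h2 : ∀ v, (τ v).support ⊆ v.support)
    (h3 : ∀ (i : Fin n) v, τ (sh k (n + 1) i.castSucc v) = sh k (n + 1) i.castSucc (τ v))
    (h4 : ∀ v, Ψ (sh k (n + 1) (Fin.last n) v) = M (Ψ v))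
    (h5 : ∀ (i : Fin n) v, Ψ (sh k (n + 1) i.castSucc v) = sh k (n + 1) i.castSucc (Ψ v))
    (h6 : ∀ d, ∀ v ∈ Pd k (n + 1) d, Ψ v ∈ Pd k (n + 1) d) (hinj : Function.Injective Ψ)
    (W : ℕ → Submodule k (VV k (n + 1))) (hW : HW W) (hτ : ∀ d, ∀ w ∈ W d, τ w ∈ W d) :
    (∀ d, finrank k (Pd k (n + 1) d ⊓ (W d).comap Ψ : Submodule k _) = finrank k (W d)) ∧
      ∀ p j, tW (fun d => Pd k (n + 1) d ⊓ (W d).comap Ψ) p j = tW W p j := by
  have : ∀ d, FiniteDimensional k (W d) := fun d => hW.fin d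
  have hs : ∀ (s : Set (Fin (n + 1) →₀ ℕ)), ∀ v ∈ Finsupp.supported k k s,
      τ v ∈ Finsupp.supported k k s := fun s v hv β hβ => hv (h2 v hβ)
  have hΨ : ∀ d, (Pd k (n + 1) d).map Ψ = Pd k (n + 1) d := fun d =>
    Submodule.eq_of_le_of_finrank_le (Submodule.map_le_iff_le_comap.2 (h6 d))
      (le_of_eq (finrank_map_inj _ _
        fun w _ hw => (injective_iff_map_eq_zero _).1 hinj w hw).symm)
  have e : (fun d => (Pd k (n + 1) d ⊓ (W d).comap Ψ).map Ψ) = W := by
    funext d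
    rw [← Submodule.map_inf_eq_map_inf_comap, hΨ]
    exact inf_eq_right.2 (hW d)
  refine ⟨fun d => ?_, fun p j => ?_⟩
  · conv_rhs => rw [← congrFun e d]
    exact (Submodule.equivMapOfInjective Ψ hinj _).finrank_eq
  let T : Fin (n + 1) → _ := fun i => if i = Fin.last n then M else sh k (n + 1) i
  let Θ := IsoP l.castSucc (Fin.last n) τ ∘ₗ Ψ.compLeft (Finset (Fin (n + 1)))
  have hΘ : Function.Injective Θ :=
    (IsoP_inj _ _ τ).comp fun u v h => funext fun F => hinj (congrFun h F)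
  have m1 : (ch (n + 1) (Pd k (n + 1)) (p + 1) j).map Θ = ch (n + 1) (Pd k (n + 1)) (p + 1) j := by
    rw [Submodule.map_comp, ch_map]
    simp only [hΨ]
    exact IsoP_ch _ _ τ _ (fun d => hs _) _ _
  have m2 : (ch (n + 1) (fun d => Pd k (n + 1) d ⊓ (W d).comap Ψ) p j).map Θ =
      ch (n + 1) W p j := by
    rw [Submodule.map_comp, ch_map, e]
    exact IsoP_ch _ _ τ W hτ _ _
  have hc : ∀ u, Θ (kos (sh k (n + 1)) u) = kos (sh k (n + 1)) (Θ u) := fun u => by
    simp only [Θ, LinearMap.comp_apply]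
    rw [kos_comp (sh k (n + 1)) T Ψ fun i v => ?_]
    · refine IsoP_kos (Fin.castSucc_lt_last l) Fin.le_last _ T τ (fun v => ?_)
        (fun i hi => if_neg hi) (fun i hi v => ?_) _
      · simp only [T, if_true, h1]
      · obtain ⟨i, rfl⟩ := Fin.exists_castSucc_eq.2 hi
        exact h3 i v
    · induction i using Fin.lastCases with
      | last => simp only [T, if_true, h4]
      | cast i => simp only [T, if_neg (Fin.castSucc_lt_last i).ne, h5]
  have m3 : ((ch (n + 1) (Pd k (n + 1)) (p + 1) j).map (kos (sh k (n + 1)))).map Θ =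
      (ch (n + 1) (Pd k (n + 1)) (p + 1) j).map (kos (sh k (n + 1))) := by
    conv_rhs => rw [← m1]
    rw [← Submodule.map_comp, ← Submodule.map_comp]
    congr 1
    exact LinearMap.ext hc
  unfold tW tt
  rw [← m2]
  conv_rhs => rw [← m3]
  rw [← Submodule.map_inf _ hΘ]
  exact (Submodule.equivMapOfInjective Θ hΘ _).finrank_eq

end Vale.Agent.P200G
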