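import Vale.Agent.P200G.GDef
import Vale.Agent.P200G.QopG
import Vale.Agent.P200G.InZ
import Vale.Agent.P200G.Twist

namespace Vale.Agent.P200G

open Module P200 P200L P200D

variable {n : ℕ} {k : Type*} [DivisionRing k]

lemma shG_fix (Ψ : VV k (n + 1) →ₗ[k] VV k (n + 1))
    (h7 : ∀ β γ, Ψ (Finsupp.single β 1) γ ≠ 0 → γ = β ∨ γ (Fin.last n) < β (Fin.last n))
    (h8 : ∀ β, Ψ (Finsupp.single β 1) β = 1) (κ : ℕ) (w : VV k (n + 1))
    (γ : Fin (n + 1) →₀ ℕ) (hγ : κ ≤ γ (Fin.last n)) :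
    Ψ (zf k n κ w) γ = zf k n κ w γ := by
  classical
  induction w using Finsupp.induction_linear with
  | zero => simp
  | add a b h1 h2 => simp only [map_add, Finsupp.add_apply, h1, h2]
  | single β c =>
    by_cases hb : β (Fin.last n) = κ
    · have e : zf k n κ (Finsupp.single β c) = c • Finsupp.single β 1 := by
        ext δ
        rw [zf_apply, Finsupp.smul_single, smul_eq_mul, mul_one]
        split_ifs with h
        · rfl
        · rw [Finsupp.single_eq_of_ne]
          rintro rfl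
          exact h hb
      rw [e, map_smul, Finsupp.smul_apply, Finsupp.smul_apply]
      congr 1
      by_cases hd : γ = β
      · rw [hd, h8, Finsupp.single_eq_same]
      · rw [Finsupp.single_eq_of_ne hd]
        by_contra hne
        rcases h7 β γ hne with h | h
        · exact hd h
        · omega
    · have e : zf k n κ (Finsupp.single β c) = 0 := by
        ext δ
        rw [zf_apply]
        split_ifs with h
        · rw [Finsupp.single_eq_of_ne, Finsupp.zero_apply]
          rintro rfl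
          exact hb h
        · rfl
      rw [e, map_zero]

lemma shG_sf {U : Submodule k (VV k (n + 1))} (hU : ∀ κ, ∀ w ∈ U, zf k n κ w ∈ U) (κ : ℕ) :
    ∀ w ∈ U, sfF k n κ w ∈ U := by
  intro w hw
  induction κ with
  | zero =>
    have : sfF k n 0 w = w := by
      ext β
      rw [sfF_apply, if_pos (Nat.zero_le _)]
    rwa [this]
  | succ κ ih =>
    have : sfF k n (κ + 1) w = sfF k n κ w - zf k n κ w := by
      ext β
      rw [Finsupp.sub_apply, sfF_apply, sfF_apply, zf_apply]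
      split_ifs <;> first | omega | simp
    rw [this]
    exact sub_mem ih (hU κ w hw)

lemma shG_vge (κ : ℕ) (w : VV k (n + 1)) : zf k n κ w ∈ Vge k n κ := by
  intro β hβ
  have h0 := Finsupp.mem_support_iff.mp hβ
  rw [zf_apply] at h0
  split_ifs at h0 with hc
  · exact hc.ge
  · exact absurd rfl h0

lemma shG_emb (κ : ℕ) (w : VV k (n + 1)) : emb k n κ (layCo k n κ w) = zf k n κ w := by
  ext γ
  rw [zf_apply, emb, Finsupp.lmapDomain_apply]
  split_ifs with h
  · have e : γ = snc (ini γ) κ := by rw [← h, snc_ini]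
    rw [e, Finsupp.mapDomain_apply (f := fun β => snc β κ) (fun _ _ h => (lay_inj.1 h).1),
      layCo_apply]
  · refine Finsupp.mapDomain_notin_range _ _ ?_
    rintro ⟨β, rfl⟩
    exact h (snc_last _ _)

theorem shiftG (a : Fin (n + 1) → ℕ) (l : Fin n)
    (hl : a l.castSucc ≤ a (Fin.last n)) (hg : GoodC k (a (Fin.last n)))
    (W : ℕ → Submodule k (VV k (n + 1))) (h : HW W) (hu : UpW W) (hz : ZG W) (ho : OutW a W) :
    ∃ W' : ℕ → Submodule k (VV k (n + 1)), HW W' ∧ UpW W' ∧ ZG W' ∧ OutW a W' ∧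
      (∀ d, finrank k (W' d) = finrank k (W d)) ∧ (∀ p j, tW W p j ≤ tW W' p j) ∧
      (∀ d, layW W 0 d ≤ layW W' 0 d) ∧
      (∀ d κ, finrank k (W' d ⊓ Vge k n κ : Submodule k _) ≤
        finrank k (W d ⊓ Vge k n κ : Submodule k _)) ∧
      ∀ i d, i + 1 < a (Fin.last n) → ∀ v ∈ layW W (i + 1) d, sh k n l v ∉ layW W i (d + 1) →
        finrank k (W' (d + (i + 1)) ⊓ Vge k n (i + 1) : Submodule k _) <
          finrank k (W (d + (i + 1)) ⊓ Vge k n (i + 1) : Submodule k _) := by
  classical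
  obtain ⟨Ψ, M, τ, h1, h2, h3, h4, h5, h6, h7, h8, h9, h10, h11⟩ := qopG a l hl hg
  have hinj : Function.Injective Ψ := by
    rw [injective_iff_map_eq_zero]
    intro v hv
    exact tri_inj Ψ h7 h8 0 v (fun _ _ => Nat.zero_le _) fun γ _ => by rw [hv]; rfl
  have hτ : ∀ d, ∀ w ∈ W d, τ w ∈ W d := fun d => h10 (W d) (hz d)
  obtain ⟨t1, t2⟩ := tt_twistG l Ψ M τ h1 h2 h3 h4 h5 h6 hinj W h hτ
  let W1 : ℕ → Submodule k (VV k (n + 1)) := fun d => Pd k (n + 1) d ⊓ (W d).comap Ψ
  have hW1 : HW W1 := fun d => inf_le_left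
  have hu1 : UpW W1 := by
    intro d i w hw
    refine ⟨sh_Pd i d w hw.1, Submodule.mem_comap.mpr ?_⟩
    have hw2 : Ψ w ∈ W d := hw.2
    induction i using Fin.lastCases with
    | last =>
      rw [h4, h1]
      exact add_mem (hu _ _ _ hw2) (hu _ _ _ (hτ _ _ hw2))
    | cast i =>
      rw [h5]
      exact hu _ _ _ hw2
  obtain ⟨W', a1, a2, a3, a4, a5, a6⟩ := inZ W1 hW1 hu1
  have hfc : ∀ d c, FiniteDimensional k (W1 d ⊓ Vge k n c : Submodule k _) := fun d c =>
    Submodule.finiteDimensional_of_le (inf_le_left.trans (hW1 d))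
  have hft : ∀ d c, FiniteDimensional k (W d ⊓ Vge k n c : Submodule k _) := fun d c =>
    Submodule.finiteDimensional_of_le (inf_le_left.trans (h d))
  have c1 : ∀ d c, finrank k (W' d ⊓ Vge k n c : Submodule k _) =
      finrank k ((W1 d ⊓ Vge k n c).map (sfF k n c ∘ₗ Ψ)) := by
    intro d c
    rw [a6, finrank_map_inj]
    intro w hw h0
    refine tri_inj Ψ h7 h8 c w (fun β hβ => hw.2 hβ) fun γ hγ => ?_
    have := DFunLike.congr_fun h0 γ
    rwa [LinearMap.comp_apply, sfF_apply, if_pos hγ] at this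
  have c3 : ∀ d c, (W1 d ⊓ Vge k n c).map (sfF k n c ∘ₗ Ψ) ≤ W d ⊓ Vge k n c := by
    rintro d c _ ⟨w, hw, rfl⟩
    refine ⟨shG_sf (hz d) c _ hw.1.2, fun β hβ => ?_⟩
    have h0 := Finsupp.mem_support_iff.mp hβ
    rw [LinearMap.comp_apply, sfF_apply] at h0
    split_ifs at h0 with hc
    · exact hc
    · exact absurd rfl h0
  have hV : Vge k n 0 = ⊤ := eq_top_iff.mpr fun v _ β _ => Nat.zero_le _
  refine ⟨W', a1, a2, a3, ?_, ?_, ?_, ?_, ?_, ?_⟩
  · intro β hβ
    have hP : Finsupp.single β (1 : k) ∈ Pd k (n + 1) β.degree :=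
      Finsupp.single_mem_supported _ _ (by simp [mem_expo])
    have hm : Ψ (Finsupp.single β 1) ∈ W β.degree := by
      rw [← Finsupp.sum_single (Ψ (Finsupp.single β 1))]
      refine Submodule.sum_mem _ fun γ hγ => ?_
      have e := mem_expo.mp (h6 _ _ hP hγ)
      have := (W β.degree).smul_mem (Ψ (Finsupp.single β 1) γ)
        (e ▸ ho γ (h9 β γ hβ (Finsupp.mem_support_iff.mp hγ)))
      rwa [Finsupp.smul_single, smul_eq_mul, mul_one] at this
    have e : zf k n (β (Fin.last n)) (Finsupp.single β (1 : k)) = Finsupp.single β 1 := by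
      ext δ
      rw [zf_apply]
      split_ifs with h
      · rfl
      · rw [Finsupp.single_eq_of_ne]
        rintro rfl
        exact h rfl
    have := a5 β.degree (β (Fin.last n)) _ ⟨hP, hm⟩ (e ▸ shG_vge _ _)
    rwa [e] at this
  · intro d
    have := a6 d 0
    rw [hV, inf_top_eq, inf_top_eq] at this
    exact this.trans (t1 d)
  · intro p j
    rw [← t2]
    exact a4 p j
  · rintro d _ ⟨w, hw, rfl⟩
    have hw0 := hz _ 0 w hw
    have e : Ψ (zf k n 0 w) = zf k n 0 w := by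
      ext γ
      exact shG_fix Ψ h7 h8 0 w γ (Nat.zero_le _)
    have hw1 : zf k n 0 w ∈ W1 (d + 0) := ⟨h _ hw0, Submodule.mem_comap.mpr (by rwa [e])⟩
    refine ⟨_, a5 _ 0 _ hw1 (shG_vge _ _), ?_⟩
    ext β
    simp only [layCo_apply, zf_apply, snc_last, if_true]
  · intro d c
    rw [c1]
    exact Submodule.finrank_mono (c3 d c)
  · rintro i d g2 _ ⟨w, hw, rfl⟩ g3
    rw [c1]
    refine Submodule.finrank_lt_finrank_of_lt (lt_of_le_of_ne (c3 _ _) fun he => g3 ?_)
    have hs : zf k n (i + 1) w ∈ W (d + (i + 1)) ⊓ Vge k n (i + 1) :=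
      ⟨hz _ _ w hw, shG_vge _ _⟩
    rw [← he] at hs
    obtain ⟨u, hu', hwe⟩ := hs
    have hv : u - zf k n (i + 1) w = 0 := by
      refine tri_inj Ψ h7 h8 (i + 1) _
        (fun δ hδ => sub_mem hu'.2 (shG_vge (i + 1) w) hδ) fun δ hδ => ?_
      have := DFunLike.congr_fun hwe δ
      rw [LinearMap.comp_apply, sfF_apply, if_pos hδ] at this
      rw [map_sub, Finsupp.sub_apply, this, shG_fix Ψ h7 h8 _ w δ hδ, sub_self]
    rw [sub_eq_zero] at hv
    have hw2 : Ψ u ∈ W (d + (i + 1)) := hu'.1.2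
    obtain ⟨q, hq, hq2⟩ := h11 i g2
    have hm : q • sh k n l (layCo k n (i + 1) w) ∈ layW W i (d + 1) := by
      rw [← hq2, shG_emb, ← hv]
      refine ⟨Ψ u, ?_, rfl⟩
      rwa [show d + 1 + i = d + (i + 1) by omega]
    have := (layW W i (d + 1)).smul_mem q⁻¹ hm
    rwa [smul_smul, inv_mul_cancel₀ hq, one_smul] at this

end Vale.Agent.P200G
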