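import Vale.Agent.P200G.GDef
import Vale.Agent.P200G.ShiftG

namespace Vale.Agent.P200G

open Module P200 P200L P200D

variable {n : ℕ} {k : Type*} [DivisionRing k]

theorem stabG_full {a : Fin (n + 1) → ℕ} {W : ℕ → Submodule k (VV k (n + 1))} (h : HW W)
    (ho : OutW a W) {D : ℕ} (hD : ∑ i, a i ≤ D) : W D = Pd k (n + 1) D := by
  refine le_antisymm (h D) ?_
  rw [Pd, Finsupp.supported_eq_span_single, Submodule.span_le]
  rintro _ ⟨β, hβ, rfl⟩
  have e : β.degree = D := mem_expo.1 (Finset.mem_coe.1 hβ)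
  have o : Out a β := by
    by_contra h0
    have h1 : ∀ i, β i < a i := fun i => not_le.1 fun hi => h0 ⟨i, hi⟩
    have h2 := Finset.sum_lt_sum_of_nonempty Finset.univ_nonempty fun i _ => h1 i
    rw [← Finsupp.degree_eq_sum] at h2
    omega
  exact e ▸ ho β o

theorem stabG_z (a : Fin (n + 1) → ℕ) (hl : ∀ l : Fin n, a l.castSucc ≤ a (Fin.last n))
    (hg : GoodC k (a (Fin.last n)))
    (W : ℕ → Submodule k (VV k (n + 1))) (h : HW W) (hu : UpW W) (hz : ZG W) (ho : OutW a W) :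
    ∃ W' : ℕ → Submodule k (VV k (n + 1)), HW W' ∧ UpW W' ∧ ZG W' ∧ OutW a W' ∧
      (∀ d, finrank k (W' d) = finrank k (W d)) ∧ (∀ p j, tW W p j ≤ tW W' p j) ∧
      (∀ d, layW W 0 d ≤ layW W' 0 d) ∧ StabW (a (Fin.last n)) W' := by
  obtain ⟨N, hN⟩ : ∃ N, N = ∑ i, a i := ⟨_, rfl⟩
  obtain ⟨μ, hμ⟩ : ∃ μ, μ = ∑ d ∈ Finset.range N, ∑ c ∈ Finset.range N,
      finrank k (W d ⊓ Vge k n c : Submodule k _) := ⟨_, rfl⟩
  induction μ using Nat.strong_induction_on generalizing W with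
  | _ μ ih =>
    by_cases hS : StabW (a (Fin.last n)) W
    · exact ⟨W, h, hu, hz, ho, fun _ => rfl, fun _ _ => le_rfl, fun _ => le_rfl, hS⟩
    · unfold StabW at hS
      push Not at hS
      obtain ⟨i, g1, d, l, v, g2, g3⟩ := hS
      obtain ⟨W', u1, u2, u3, u4, u5, u6, u7, u8, u9⟩ := shiftG a l (hl l) hg W h hu hz ho
      have s := u9 i d g1 v g2 g3
      have d1 : d + (i + 1) < N := by
        by_contra h0
        rw [stabG_full h ho (hN ▸ not_lt.1 h0), stabG_full u1 u4 (hN ▸ not_lt.1 h0)] at s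
        exact lt_irrefl _ s
      have hlt : ∑ d ∈ Finset.range N, ∑ c ∈ Finset.range N,
          finrank k (W' d ⊓ Vge k n c : Submodule k _) < μ := by
        rw [hμ]
        refine Finset.sum_lt_sum (fun d _ => Finset.sum_le_sum fun c _ => u8 d c)
          ⟨d + (i + 1), Finset.mem_range.mpr d1, ?_⟩
        exact Finset.sum_lt_sum (fun c _ => u8 _ c) ⟨i + 1, Finset.mem_range.mpr (by omega), s⟩
      obtain ⟨W'', v1, v2, v3, v4, v5, v6, v7, v8⟩ := ih _ hlt W' u1 u2 u3 u4 rfl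
      exact ⟨W'', v1, v2, v3, v4, fun d => (v5 d).trans (u5 d), fun p j => (u6 p j).trans (v6 p j),
        fun d => (u7 d).trans (v7 d), v8⟩

theorem stabG (a : Fin (n + 1) → ℕ) (hl : ∀ l : Fin n, a l.castSucc ≤ a (Fin.last n))
    (hg : GoodC k (a (Fin.last n)))
    (W : ℕ → Submodule k (VV k (n + 1))) (h : HW W) (hu : UpW W) (ho : OutW a W) :
    ∃ W' : ℕ → Submodule k (VV k (n + 1)), HW W' ∧ UpW W' ∧ ZG W' ∧ OutW a W' ∧
      (∀ d, finrank k (W' d) = finrank k (W d)) ∧ (∀ p j, tW W p j ≤ tW W' p j) ∧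
      (∀ d, layW W 0 d ≤ layW W' 0 d) ∧ StabW (a (Fin.last n)) W' := by
  obtain ⟨W1, u1, u2, u3, u4, u5, u6⟩ := inZ W h hu
  have top : Vge k n 0 = ⊤ := eq_top_iff.2 fun w _ β _ => Nat.zero_le _
  have o1 : OutW a W1 := fun β hβ => by
    have := u5 _ (β (Fin.last n)) _ (ho β hβ)
      (Finsupp.single_mem_supported k _ (le_refl (β (Fin.last n))))
    have e : zf k n (β (Fin.last n)) (Finsupp.single β 1) = Finsupp.single β 1 :=
      Finsupp.filter_single_of_pos _ rfl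
    rwa [e] at this
  have f1 : ∀ d, finrank k (W1 d) = finrank k (W d) := fun d => by
    have := u6 d 0
    rwa [top, inf_top_eq, inf_top_eq] at this
  have l1 : ∀ d, layW W 0 d ≤ layW W1 0 d := fun d => by
    rintro _ ⟨w, hw, rfl⟩
    refine ⟨zf k n 0 w, u5 _ 0 w hw (top ▸ Submodule.mem_top), ?_⟩
    ext β
    rw [layCo_apply, layCo_apply, zf_apply, if_pos (snc_last β 0)]
  obtain ⟨W', v1, v2, v3, v4, v5, v6, v7, v8⟩ := stabG_z a hl hg W1 u1 u2 u3 o1
  exact ⟨W', v1, v2, v3, v4, fun d => (v5 d).trans (f1 d), fun p j => (u4 p j).trans (v6 p j),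
    fun d => (l1 d).trans (v7 d), v8⟩

end Vale.Agent.P200G
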